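import Vale.Agent.P125.Flow

namespace Vale.Agent.P125

open Finset

theorem zval_succ {M : ℕ} (c : ZMod (M + 2)) (h : c ≠ -1) : (c + 1).val = c.val + 1 := by
  haveI : Fact (1 < M + 2) := ⟨by omega⟩
  have h1 : c.val < M + 2 := ZMod.val_lt c
  have h2 : c.val ≠ M + 1 := fun h' => h (ZMod.val_injective _ (by rw [h', ZMod.val_neg_one]))
  rw [ZMod.val_add_of_lt (by rw [ZMod.val_one]; omega), ZMod.val_one]

theorem cnt_eq {D : Type} [Fintype D] [DecidableEq D] (M : ℕ) (δ : D) (c : ZMod (M + 2)) :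
    (∑ a : D → ZMod (M + 2), if a δ = c then (1 : ℝ) else 0) =
      Fintype.card (D → ZMod (M + 2)) / (M + 2) := by
  have h1 : ∀ c : ZMod (M + 2), (∑ a : D → ZMod (M + 2), if a δ = c then (1 : ℝ) else 0) =
      ∑ a : D → ZMod (M + 2), if a δ = 0 then (1 : ℝ) else 0 := fun c => by
    refine (Fintype.sum_equiv (Equiv.addRight (Pi.single δ c)) _ _ fun a => ?_).symm
    simp
  have h2 : ∑ c : ZMod (M + 2), (∑ a : D → ZMod (M + 2), if a δ = c then (1 : ℝ) else 0) =
      Fintype.card (D → ZMod (M + 2)) := by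
    rw [Finset.sum_comm]; simp
  simp only [h1] at h2 ⊢
  rw [Finset.sum_const, card_univ, ZMod.card, nsmul_eq_mul] at h2
  rw [← h2]
  push_cast
  field_simp

variable {S D : Type} [Fintype S] [Fintype D] [DecidableEq S] {π : S → ℝ}
  {src tgt : D → S} {W : D → ℝ} {rev : D → D}

open Classical in
theorem cocycle_main (h : IsFlow π src tgt W rev) {V : Type*} [AddCommGroup V] [Module ℝ V]
    {C : ℝ} (hC : 0 ≤ C)
    {R : V → ℝ} (hR : MIneq C R) (hR0 : ∀ x, 0 ≤ R x) (hR00 : R 0 = 0) (ω : D → V)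
    (hω : ∀ δ, ω (rev δ) = -ω δ) {η κ A B : ℝ} (hκ0 : 0 ≤ κ)
    (htot : 1 - η ≤ ∑ δ, W δ) (compat : D → D → Prop)
    (hκ : ∀ δ, (∑ δ', if src δ' = tgt δ ∧ ¬ compat δ δ' then W δ' else 0) ≤ κ * π (tgt δ))
    (Inv : ℕ → V → D → Prop) (base : ∀ δ, W δ ≠ 0 → Inv 1 (ω δ) δ)
    (step : ∀ t g δ δ', Inv t g δ → W δ' ≠ 0 → src δ' = tgt δ → compat δ δ' →
      Inv (t + 1) (g + ω δ') δ')
    (hA0 : 0 ≤ A) (hA : ∀ δ, W δ ≠ 0 → R (ω δ) ≤ A) (hB0 : 0 ≤ B) (t : ℕ)
    (hB : ∀ g δ, Inv (t + 1) g δ → B ≤ R g) (M : ℕ) :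
    (1 - (t + 1) * (η + 2 / (M + 2) + κ)) * B ≤ C * (t + 1) * A := by
  set N : ℝ := ((Fintype.card (D → ZMod (M + 2)) : ℕ) : ℝ) with hN
  have hN0 : 0 < N := by rw [hN]; exact_mod_cast Fintype.card_pos
  set χ : D → (D → ZMod (M + 2)) := fun δ => Pi.single δ 1 - Pi.single (rev δ) 1 with hχ
  set ok : D × (D → ZMod (M + 2)) → Prop := fun e => e.1 = rev e.1 ∨ (e.2 e.1 ≠ -1 ∧ e.2 (rev e.1) ≠ 0) with hok
  set W' : D × (D → ZMod (M + 2)) → ℝ := fun e => if ok e then W e.1 / N else 0 with hW'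
  have hWle : ∀ e, W' e ≤ W e.1 / N := fun e => by
    have := div_nonneg (h.w0 e.1) hN0.le
    simp only [hW']; split_ifs <;> first | exact this | exact le_rfl
  have hW0 : ∀ e, 0 ≤ W' e := fun e => by
    have := div_nonneg (h.w0 e.1) hN0.le
    simp only [hW']; split_ifs <;> first | exact this | exact le_rfl
  have hWne : ∀ e, W' e ≠ 0 → ok e ∧ W e.1 ≠ 0 := fun e he => by
    simp only [hW'] at he
    split_ifs at he with h1
    · exact ⟨h1, fun h0 => he (by simp [h0])⟩
    · exact absurd rfl he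
  have hχr : ∀ δ, χ (rev δ) = -χ δ := fun δ => by simp [hχ, h.rr]
  have hχ1 : ∀ δ, δ ≠ rev δ → χ δ δ = 1 := fun δ hd => by simp [hχ, Pi.single_apply, hd]
  have hχ2 : ∀ δ, δ ≠ rev δ → χ δ (rev δ) = -1 := fun δ hd => by
    simp [hχ, Pi.single_apply, Ne.symm hd]
  have hsum : ∀ (x : S) (a : (D → ZMod (M + 2))) (q : D → Prop), (∑ e : D × (D → ZMod (M + 2)), if (src e.1, e.2) = (x, a) ∧ q e.1
      then W' e else 0) ≤ (∑ δ, if src δ = x ∧ q δ then W δ else 0) / N := fun x a q => by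
    rw [Fintype.sum_prod_type, Finset.sum_div]
    refine Finset.sum_le_sum fun δ _ => ?_
    rw [Finset.sum_eq_single a (fun b _ hb => by simp [hb]) (by simp)]
    by_cases hc : src δ = x ∧ q δ
    · simpa [hc] using hWle (δ, a)
    · rw [if_neg hc, if_neg (fun h' => hc ⟨(Prod.ext_iff.mp h'.1).1, h'.2⟩), zero_div]
  have hF : IsFlow (fun s : S × (D → ZMod (M + 2)) => π s.1 / N) (fun e : D × (D → ZMod (M + 2)) => (src e.1, e.2))
      (fun e => (tgt e.1, e.2 + χ e.1)) W' (fun e => (rev e.1, e.2 + χ e.1)) := by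
    refine ⟨fun s => div_nonneg (h.p0 _) hN0.le, ?_, hW0, fun e => ?_, fun e => ?_, fun e => ?_,
      fun s => ?_⟩
    · rw [Fintype.sum_prod_type]
      simp only [Finset.sum_const, card_univ, nsmul_eq_mul, ← hN]
      rw [← h.p1]
      exact Finset.sum_congr rfl fun x _ => by field_simp
    · simp [h.rr, hχr]
    · simp [h.sr]
    · simp only [hW', h.wr]
      congr 1
      simp only [hok, h.rr, Pi.add_apply, eq_iff_iff]
      by_cases hd : e.1 = rev e.1
      · simp [hd.symm]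
      · rw [hχ1 _ hd, hχ2 _ hd]
        simp only [hd, Ne.symm hd, false_or, ne_eq, add_eq_zero_iff_eq_neg, add_eq_right]
        exact and_comm
    · have := hsum s.1 s.2 fun _ => True
      simp only [and_true] at this
      exact this.trans (div_le_div_of_nonneg_right (h.out _) hN0.le)
  refine flow_main hF hC hR hR0 hR00
    (fun s => (1 / 2 : ℝ) • ∑ δ, ((s.2 δ).val : ℝ) • ω δ) (fun e => ω e.1) (fun e he => ?_) hκ0 ?_
    (fun e e' => compat e.1 e'.1) (fun e => ?_) (fun t g e => Inv t g e.1)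
    (fun e he => base _ (hWne e he).2) (fun t g e e' hI he hs hc =>
      step t g _ _ hI (hWne e' he).2 (Prod.ext_iff.mp hs).1 hc) hA0
    (fun e he => hA _ (hWne e he).2) hB0 t fun g e => hB g e.1
  · obtain ⟨δ, a⟩ := e
    simp only
    by_cases hd : δ = rev δ
    · have h1 : χ δ = 0 := by simp only [hχ, ← hd, sub_self]
      have h2 := hω δ
      rw [← hd] at h2
      have h3 : (2 : ℝ) • ω δ = 0 := by rw [two_smul]; nth_rw 1 [h2]; simp
      rw [h1, add_zero, sub_self, (smul_eq_zero_iff_right (by norm_num)).mp h3]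
    · have hk : a δ ≠ -1 ∧ a (rev δ) ≠ 0 := ((hWne _ he).1).resolve_left hd
      have e1 : ∀ δ', (((a + χ δ) δ').val : ℝ) • ω δ' - ((a δ').val : ℝ) • ω δ' =
          (if δ' = δ then ω δ else 0) + (if δ' = rev δ then ω δ else 0) := fun δ' => by
        rw [← sub_smul, Pi.add_apply]
        by_cases h1 : δ' = δ
        · subst h1
          rw [hχ1 _ hd, zval_succ _ hk.1]
          simp [hd]
        · by_cases h2 : δ' = rev δ
          · subst h2
            have := zval_succ (a (rev δ) + -1) (by simpa using hk.2)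
            rw [neg_add_cancel_right] at this
            rw [hχ2 _ hd, this, hω]
            simp [h1]
          · simp [hχ, Pi.single_apply, h1, h2]
      rw [← smul_sub, ← Finset.sum_sub_distrib]
      simp only [e1, Finset.sum_add_distrib, Finset.sum_ite_eq', mem_univ, if_true]
      module
  · rw [Fintype.sum_prod_type]
    have : ∀ δ, W δ - W δ * (2 / (M + 2)) ≤ ∑ a : (D → ZMod (M + 2)), W' (δ, a) := fun δ => by
      have h1 : ∀ a : (D → ZMod (M + 2)), W δ / N * (1 - (if a δ = -1 then 1 else 0) -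
          (if a (rev δ) = 0 then 1 else 0)) ≤ W' (δ, a) := fun a => by
        have h0 := div_nonneg (h.w0 δ) hN0.le
        have h1 := hW0 (δ, a)
        by_cases h2 : a δ = -1
        · by_cases h3 : a (rev δ) = 0 <;> simp only [h2, h3, if_true, if_false] <;> linarith
        · by_cases h3 : a (rev δ) = 0
          · simp only [h2, h3, if_true, if_false]; linarith
          · simp [hW', hok, h2, h3]
      refine le_trans (le_of_eq ?_) (Finset.sum_le_sum fun a _ => h1 a)
      rw [← Finset.mul_sum, Finset.sum_sub_distrib, Finset.sum_sub_distrib, cnt_eq, cnt_eq]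
      simp only [Finset.sum_const, card_univ, nsmul_eq_mul, mul_one]
      rw [← hN]
      field_simp
      ring
    have h1 := Finset.sum_le_sum fun δ (_ : δ ∈ univ) => this δ
    rw [Finset.sum_sub_distrib, ← Finset.sum_mul] at h1
    have h2 := mul_le_of_le_one_left (by positivity : (0 : ℝ) ≤ 2 / (M + 2)) h.sumW_le
    linarith
  · have := hsum (tgt e.1) (e.2 + χ e.1) fun δ' => ¬ compat e.1 δ'
    refine le_trans (le_of_eq ?_) (this.trans ?_)
    · exact Finset.sum_congr rfl fun _ _ => by congr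
    · rw [← mul_div_assoc]
      refine div_le_div_of_nonneg_right (le_trans (le_of_eq ?_) (hκ e.1)) hN0.le
      exact Finset.sum_congr rfl fun _ _ => by congr

end Vale.Agent.P125
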