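import Mathlib

namespace Vale.Agent.P125

open Filter Topology

/-- Markov type `p` (Ball): one constant `K` works for every finite stationary reversible chain
(initial law `π`, transition matrix `P`), every `f` and every `t ≥ 1`.
The pair `(Z_0, Z_t)` has law `π i * (P ^ t) i j`. -/
def HasMarkovType (X : Type*) [NormedAddCommGroup X] (p : ℝ) : Prop :=
  ∃ K : ℝ, 0 ≤ K ∧ ∀ (S : Type) [Fintype S] [DecidableEq S] (π : S → ℝ) (P : Matrix S S ℝ),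
    (∀ i, 0 ≤ π i) → ∑ i, π i = 1 → (∀ i j, 0 ≤ P i j) → (∀ i, ∑ j, P i j = 1) →
    (∀ i j, π i * P i j = π j * P j i) →
    ∀ (f : S → X) (t : ℕ), 1 ≤ t →
      ∑ i, ∑ j, π i * (P ^ t) i j * ‖f j - f i‖ ^ p ≤
        K ^ p * t * ∑ i, ∑ j, π i * P i j * ‖f j - f i‖ ^ p

variable {X : Type*} [NormedAddCommGroup X] [NormedSpace ℝ X]

/-- `N` is a norm equivalent to the given norm. -/
def IsEquivNorm (N : Seminorm ℝ X) : Prop :=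
  ∃ a b : ℝ, 0 < a ∧ 0 < b ∧ ∀ x, a * ‖x‖ ≤ N x ∧ N x ≤ b * ‖x‖

/-- `N` is uniformly convex. -/
def IsUnifConvex (N : Seminorm ℝ X) : Prop :=
  ∀ ε : ℝ, 0 < ε → ε ≤ 2 → ∃ δ : ℝ, 0 < δ ∧ ∀ x y : X, N x ≤ 1 → N y ≤ 1 → ε ≤ N (x - y) →
    N ((1 / 2 : ℝ) • (x + y)) ≤ 1 - δ

/-- The modulus of smoothness of `N`. -/
noncomputable def rho (N : Seminorm ℝ X) (τ : ℝ) : ℝ :=
  sSup {r : ℝ | ∃ x y : X, N x = 1 ∧ N y = 1 ∧ r = (N (x + τ • y) + N (x - τ • y)) / 2 - 1}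

/-- `N` is uniformly smooth. -/
def IsUnifSmooth (N : Seminorm ℝ X) : Prop :=
  Tendsto (fun τ : ℝ => rho N τ / τ) (𝓝[>] 0) (𝓝 0)

end Vale.Agent.P125
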