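import Vale.Agent.P125.MT

namespace Vale.Agent.P125

open Finset

theorem fib {S D : Type*} [Fintype S] [Fintype D] [DecidableEq S] (h : D → S) (a : D → ℝ)
    (g : S → ℝ) : ∑ y, (∑ δ, if h δ = y then a δ else 0) * g y = ∑ δ, a δ * g (h δ) := by
  simp only [Finset.sum_mul]
  rw [Finset.sum_comm]
  refine Finset.sum_congr rfl fun δ _ => ?_
  simp [ite_mul]

/-- A reversible flow on decorated edges. -/
structure IsFlow {S D : Type} [Fintype S] [Fintype D] [DecidableEq S] (π : S → ℝ)
    (src tgt : D → S) (W : D → ℝ) (rev : D → D) : Prop where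
  p0 : ∀ x, 0 ≤ π x
  p1 : ∑ x, π x = 1
  w0 : ∀ δ, 0 ≤ W δ
  rr : ∀ δ, rev (rev δ) = δ
  sr : ∀ δ, src (rev δ) = tgt δ
  wr : ∀ δ, W (rev δ) = W δ
  out : ∀ x, (∑ δ, if src δ = x then W δ else 0) ≤ π x

section
variable {S D : Type} [Fintype S] [Fintype D] [DecidableEq S] {π : S → ℝ}
  {src tgt : D → S} {W : D → ℝ} {rev : D → D}

noncomputable def outW (src : D → S) (W : D → ℝ) (x : S) : ℝ := ∑ δ, if src δ = x then W δ else 0

noncomputable def flowF (src tgt : D → S) (W : D → ℝ) (x y : S) : ℝ :=
  ∑ δ, if tgt δ = y then (if src δ = x then W δ else 0) else 0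

noncomputable def flowP (π : S → ℝ) (src tgt : D → S) (W : D → ℝ) : Matrix S S ℝ :=
  fun x y => flowF src tgt W x y / π x + if x = y then 1 - outW src W x / π x else 0

theorem sum_flowF (x : S) : ∑ y, flowF src tgt W x y = outW src W x := by
  have := fib tgt (fun δ => if src δ = x then W δ else 0) (fun _ => 1)
  simpa [flowF, outW] using this

namespace IsFlow
variable (h : IsFlow π src tgt W rev)
include h

theorem F0 (x y : S) : 0 ≤ flowF src tgt W x y :=
  Finset.sum_nonneg fun δ _ => by have := h.w0 δ; split_ifs <;> first | exact this | exact le_rfl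

theorem out0 (x : S) : 0 ≤ outW src W x :=
  Finset.sum_nonneg fun δ _ => by have := h.w0 δ; split_ifs <;> first | exact this | exact le_rfl

theorem rej0 (x : S) : 0 ≤ 1 - outW src W x / π x :=
  sub_nonneg.mpr (div_le_one_of_le₀ (h.out x) (h.p0 x))

theorem P0 (x y : S) : 0 ≤ flowP π src tgt W x y := by
  unfold flowP
  have := h.rej0 x
  have := div_nonneg (h.F0 x y) (h.p0 x)
  split_ifs <;> linarith

theorem P1 (x : S) : ∑ y, flowP π src tgt W x y = 1 := by
  simp [flowP, Finset.sum_add_distrib, ← Finset.sum_div, sum_flowF]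

theorem mul_div {a : ℝ} {x : S} (h0 : 0 ≤ a) (h1 : a ≤ outW src W x) : π x * (a / π x) = a := by
  rcases eq_or_ne (π x) 0 with hx | hx
  · have := h.out x
    rw [hx] at this ⊢
    have h2 : outW src W x ≤ 0 := this
    rw [zero_mul]; linarith
  · field_simp

theorem piP (x y : S) : π x * flowP π src tgt W x y =
    flowF src tgt W x y + if x = y then π x - outW src W x else 0 := by
  unfold flowP
  rw [mul_add, h.mul_div (h.F0 x y) (by
    rw [← sum_flowF (tgt := tgt)]
    exact Finset.single_le_sum (fun y _ => h.F0 x y) (mem_univ y))]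
  split_ifs
  · rw [mul_sub, mul_one, h.mul_div (h.out0 x) le_rfl]
  · simp

theorem Fsymm (x y : S) : flowF src tgt W x y = flowF src tgt W y x := by
  unfold flowF
  refine Fintype.sum_equiv (Function.Involutive.toPerm rev h.rr) _ _ fun δ => ?_
  have e : tgt (rev δ) = src δ := by rw [← h.sr, h.rr]
  show _ = if tgt (rev δ) = x then (if src (rev δ) = y then W (rev δ) else 0) else 0
  rw [e, h.sr, h.wr]
  split_ifs <;> rfl

theorem rev_P (x y : S) : π x * flowP π src tgt W x y = π y * flowP π src tgt W y x := by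
  rw [h.piP, h.piP, h.Fsymm]
  by_cases hxy : x = y
  · subst hxy; rfl
  · simp [hxy, Ne.symm hxy]

theorem Pt0 (t : ℕ) (x y : S) : 0 ≤ (flowP π src tgt W ^ t) x y := by
  induction t generalizing y with
  | zero => simp only [pow_zero, Matrix.one_apply]; split_ifs <;> norm_num
  | succ t ih =>
    rw [pow_succ, Matrix.mul_apply]
    exact Finset.sum_nonneg fun u _ => mul_nonneg (ih u) (h.P0 u y)

theorem stat (t : ℕ) (y : S) : ∑ x, π x * (flowP π src tgt W ^ t) x y = π y := by
  induction t generalizing y with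
  | zero => simp [Matrix.one_apply]
  | succ t ih =>
    simp only [pow_succ, Matrix.mul_apply, Finset.mul_sum]
    rw [Finset.sum_comm]
    simp only [← mul_assoc, ← Finset.sum_mul, ih, h.rev_P _ y]
    rw [← Finset.mul_sum, h.P1, mul_one]

theorem K1 (t : ℕ) (x y : S) :
    (∑ δ, if tgt δ = y then π x * (flowP π src tgt W ^ t) x (src δ) * (W δ / π (src δ)) else 0) ≤
      π x * (flowP π src tgt W ^ (t + 1)) x y := by
  rw [pow_succ, Matrix.mul_apply, Finset.mul_sum]
  have e := fib src (fun δ => if tgt δ = y then W δ else 0)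
    (fun u => π x * (flowP π src tgt W ^ t) x u / π u)
  refine le_trans (le_of_eq ?_) (e.symm.le.trans (Finset.sum_le_sum fun u _ => ?_))
  · refine Finset.sum_congr rfl fun δ _ => ?_
    split_ifs <;> ring
  · have e2 : (∑ δ, if src δ = u then (if tgt δ = y then W δ else 0) else 0) =
        flowF src tgt W u y := Finset.sum_congr rfl fun δ _ => by split_ifs <;> rfl
    rw [e2]
    have h1 : flowF src tgt W u y / π u ≤ flowP π src tgt W u y := by
      unfold flowP
      have := h.rej0 u
      split_ifs <;> linarith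
    have h2 := mul_le_mul_of_nonneg_left h1 (mul_nonneg (h.p0 x) (h.Pt0 t x u))
    calc _ = π x * (flowP π src tgt W ^ t) x u * (flowF src tgt W u y / π u) := by ring
      _ ≤ _ := h2
      _ = _ := by ring

theorem sumW_le : ∑ δ, W δ ≤ 1 := by
  have := fib src W (fun _ => 1)
  simp only [mul_one] at this
  rw [← this, ← h.p1]
  exact Finset.sum_le_sum fun x _ => h.out x

end IsFlow

open Classical in
theorem flow_main (h : IsFlow π src tgt W rev) {V : Type*} [AddCommGroup V] {C : ℝ} (hC : 0 ≤ C)
    {R : V → ℝ} (hR : MIneq C R) (hR0 : ∀ x, 0 ≤ R x) (hR00 : R 0 = 0) (f : S → V) (ω : D → V)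
    (hω : ∀ δ, W δ ≠ 0 → f (tgt δ) - f (src δ) = ω δ) {η κ A B : ℝ} (hκ0 : 0 ≤ κ)
    (htot : 1 - η ≤ ∑ δ, W δ) (compat : D → D → Prop)
    (hκ : ∀ δ, (∑ δ', if src δ' = tgt δ ∧ ¬ compat δ δ' then W δ' else 0) ≤ κ * π (tgt δ))
    (Inv : ℕ → V → D → Prop) (base : ∀ δ, W δ ≠ 0 → Inv 1 (ω δ) δ)
    (step : ∀ t g δ δ', Inv t g δ → W δ' ≠ 0 → src δ' = tgt δ → compat δ δ' →
      Inv (t + 1) (g + ω δ') δ')
    (hA0 : 0 ≤ A) (hA : ∀ δ, W δ ≠ 0 → R (ω δ) ≤ A) (hB0 : 0 ≤ B) (t : ℕ)
    (hB : ∀ g δ, Inv (t + 1) g δ → B ≤ R g) :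
    (1 - (t + 1) * (η + κ)) * B ≤ C * (t + 1) * A := by
  set P := flowP π src tgt W with hP
  set μ : ℕ → S → D → ℝ := fun t x δ => π x * (P ^ t) x (src δ) * (W δ / π (src δ)) with hμ
  have hq0 : ∀ δ, 0 ≤ W δ / π (src δ) := fun δ => div_nonneg (h.w0 δ) (h.p0 _)
  have hμ0 : ∀ t x δ, 0 ≤ μ t x δ := fun t x δ =>
    mul_nonneg (mul_nonneg (h.p0 x) (h.Pt0 t x _)) (hq0 δ)
  have K2 : ∀ t x (g : S → ℝ), (∀ y, 0 ≤ g y) →
      ∑ δ, μ t x δ * g (tgt δ) ≤ ∑ y, π x * (P ^ (t + 1)) x y * g y := fun t x g hg => by
    rw [← fib tgt]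
    exact Finset.sum_le_sum fun y _ => mul_le_mul_of_nonneg_right (h.K1 t x y) (hg y)
  have hrej : ∑ y, π y * (1 - outW src W y / π y + κ) ≤ η + κ := by
    have e : ∀ y, π y * (1 - outW src W y / π y + κ) = π y - outW src W y + π y * κ := fun y => by
      rw [mul_add, mul_sub, mul_one, h.mul_div (h.out0 y) le_rfl]
    have e2 := fib src W (fun _ => 1)
    simp only [mul_one] at e2
    simp only [e, Finset.sum_add_distrib, Finset.sum_sub_distrib, ← Finset.sum_mul, h.p1]
    unfold outW
    rw [e2]
    linarith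
  have hG : ∀ t : ℕ, 1 - (t + 1) * (η + κ) ≤
      ∑ x, ∑ δ, if Inv (t + 1) (f (tgt δ) - f x) δ then μ t x δ else 0 := by
    intro t
    induction t with
    | zero =>
      rw [Finset.sum_comm]
      have : ∑ δ, W δ ≤ ∑ δ, ∑ x, if Inv (0 + 1) (f (tgt δ) - f x) δ then μ 0 x δ else 0 := by
        refine Finset.sum_le_sum fun δ _ => ?_
        refine le_trans ?_ (Finset.single_le_sum (f := fun x =>
          if Inv (0 + 1) (f (tgt δ) - f x) δ then μ 0 x δ else 0)
          (fun x _ => by have := hμ0 0 x δ; split_ifs <;> first | exact this | exact le_rfl) (mem_univ (src δ)))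
        by_cases hW : W δ = 0
        · have := hμ0 0 (src δ) δ
          rw [hW]; split_ifs <;> first | exact this | exact le_rfl
        · simp only [zero_add, hω δ hW, base δ hW, if_true, hμ, pow_zero, Matrix.one_apply_eq,
            mul_one]
          rw [h.mul_div (h.w0 δ)]
          refine le_trans ?_ (Finset.single_le_sum (f := fun δ' =>
            if src δ' = src δ then W δ' else 0)
            (fun δ' _ => by have := h.w0 δ'; split_ifs <;> first | exact this | exact le_rfl) (mem_univ δ))
          simp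
      push_cast
      linarith
    | succ t ih =>
      have h1 : ∀ x, ∑ δ, μ t x δ * (∑ δ', if src δ' = tgt δ then
          (if Inv (t + 1 + 1) (f (tgt δ') - f x) δ' then W δ' / π (src δ') else 0) else 0) ≤
          ∑ δ', if Inv (t + 1 + 1) (f (tgt δ') - f x) δ' then μ (t + 1) x δ' else 0 := by
        intro x
        refine (K2 t x (fun y => ∑ δ', if src δ' = y then
          (if Inv (t + 1 + 1) (f (tgt δ') - f x) δ' then W δ' / π (src δ') else 0) else 0)
          fun y => Finset.sum_nonneg fun δ' _ => by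
            have := hq0 δ'; split_ifs <;> first | exact this | exact le_rfl).trans (le_of_eq ?_)
        simp only [mul_comm (π x * _)]
        rw [fib src]
        refine Finset.sum_congr rfl fun δ' _ => ?_
        simp only [hμ]
        split_ifs <;> ring
      have h2 : ∀ x δ, (if Inv (t + 1) (f (tgt δ) - f x) δ then μ t x δ else 0) -
          μ t x δ * (1 - outW src W (tgt δ) / π (tgt δ) + κ) ≤
          μ t x δ * (∑ δ', if src δ' = tgt δ then
          (if Inv (t + 1 + 1) (f (tgt δ') - f x) δ' then W δ' / π (src δ') else 0) else 0) := by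
        intro x δ
        have hs0 : 0 ≤ ∑ δ', if src δ' = tgt δ then
            (if Inv (t + 1 + 1) (f (tgt δ') - f x) δ' then W δ' / π (src δ') else 0) else 0 :=
          Finset.sum_nonneg fun δ' _ => by have := hq0 δ'; split_ifs <;> first | exact this | exact le_rfl
        split_ifs with hI
        · have h3 : outW src W (tgt δ) / π (tgt δ) - κ ≤ ∑ δ', if src δ' = tgt δ then
              (if Inv (t + 1 + 1) (f (tgt δ') - f x) δ' then W δ' / π (src δ') else 0) else 0 := by
            rcases (h.p0 (tgt δ)).eq_or_lt with h0 | h0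
            · rw [← h0, div_zero]; linarith
            have h4 : (outW src W (tgt δ) -
                ∑ δ', if src δ' = tgt δ ∧ ¬ compat δ δ' then W δ' else 0) / π (tgt δ) ≤
                ∑ δ', if src δ' = tgt δ then (if Inv (t + 1 + 1) (f (tgt δ') - f x) δ' then
                  W δ' / π (src δ') else 0) else 0 := by
              rw [outW, ← Finset.sum_sub_distrib, Finset.sum_div]
              refine Finset.sum_le_sum fun δ' _ => ?_
              by_cases hs : src δ' = tgt δ
              · by_cases hc : compat δ δ'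
                · by_cases hW : W δ' = 0
                  · simp [hW]
                  · have := step _ _ δ δ' hI hW hs hc
                    rw [← hω δ' hW, hs, add_comm (f (tgt δ) - f x), sub_add_sub_cancel] at this
                    simp [hs, hc, this]
                · have := hq0 δ'
                  simp only [hs, hc, not_false_iff, and_self, if_true, sub_self, zero_div] at this ⊢
                  split_ifs <;> first | exact this | exact le_rfl
              · simp [hs]
            refine le_trans ?_ h4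
            rw [le_div_iff₀ h0, sub_mul, div_mul_cancel₀ _ h0.ne']
            linarith [hκ δ]
          have := mul_le_mul_of_nonneg_left h3 (hμ0 t x δ)
          linarith
        · have := mul_nonneg (hμ0 t x δ) hs0
          have := mul_nonneg (hμ0 t x δ) (add_nonneg (h.rej0 (tgt δ)) hκ0)
          linarith
      have h3 : ∑ x, ∑ δ, μ t x δ * (1 - outW src W (tgt δ) / π (tgt δ) + κ) ≤ η + κ := by
        refine le_trans (Finset.sum_le_sum fun x _ => K2 t x
          (fun y => 1 - outW src W y / π y + κ) fun y => add_nonneg (h.rej0 y) hκ0) ?_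
        rw [Finset.sum_comm]
        simp only [← Finset.sum_mul, hP, h.stat]
        exact hrej
      have h4 := Finset.sum_le_sum fun x (_ : x ∈ univ) =>
        (Finset.sum_le_sum fun δ (_ : δ ∈ univ) => h2 x δ).trans (h1 x)
      simp only [Finset.sum_sub_distrib] at h4
      push_cast
      linarith
  have h1 := hR S π P h.p0 h.p1 h.P0 h.P1 h.rev_P f (t + 1) (by omega)
  have h2 : (∑ x, ∑ δ, if Inv (t + 1) (f (tgt δ) - f x) δ then μ t x δ else 0) * B ≤
      ∑ x, ∑ y, π x * (P ^ (t + 1)) x y * R (f y - f x) := by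
    rw [Finset.sum_mul]
    refine Finset.sum_le_sum fun x _ => le_trans ?_ (K2 t x (fun y => R (f y - f x)) fun y => hR0 _)
    rw [Finset.sum_mul]
    refine Finset.sum_le_sum fun δ _ => ?_
    split_ifs with hI
    · exact mul_le_mul_of_nonneg_left (hB _ _ hI) (hμ0 t x δ)
    · rw [zero_mul]; exact mul_nonneg (hμ0 t x δ) (hR0 _)
  have h3 : ∑ x, ∑ y, π x * P x y * R (f y - f x) ≤ A := by
    have e : ∀ x, ∑ y, π x * P x y * R (f y - f x) =
        ∑ δ, (if src δ = x then W δ else 0) * R (f (tgt δ) - f x) := fun x => by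
      rw [← fib tgt _ (fun y => R (f y - f x))]
      refine Finset.sum_congr rfl fun y _ => ?_
      rw [hP, h.piP, add_mul]
      by_cases hxy : x = y
      · subst hxy; simp [hR00]
      · simp [hxy, flowF]
    simp only [e]
    rw [Finset.sum_comm]
    have : ∑ δ, ∑ x, (if src δ = x then W δ else 0) * R (f (tgt δ) - f x) ≤ ∑ δ, W δ * A := by
      refine Finset.sum_le_sum fun δ _ => ?_
      simp only [ite_mul, zero_mul, Finset.sum_ite_eq, mem_univ, if_true]
      by_cases hW : W δ = 0
      · simp [hW]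
      · rw [hω δ hW]; exact mul_le_mul_of_nonneg_left (hA δ hW) (h.w0 δ)
    rw [← Finset.sum_mul] at this
    exact this.trans (mul_le_of_le_one_left hA0 h.sumW_le)
  have h4 := mul_le_mul_of_nonneg_right (hG t) hB0
  have h5 := mul_le_mul_of_nonneg_left h3 (by positivity : 0 ≤ C * ((t : ℝ) + 1))
  push_cast at h1
  linarith

end

end Vale.Agent.P125
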