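import Vale.Agent.P125.Wave
import Vale.Agent.P125.Cocycle

namespace Vale.Agent.P125

open Finset

def idx (d j τ i : ℕ) : ℕ := d * ((i + τ) / 2) + j + (i + τ) % 2

theorem idx_even {d j τ i k : ℕ} (h : i + τ = 2 * k) : idx d j τ i = d * k + j := by
  unfold idx; rw [h]; simp

theorem idx_odd {d j τ i k : ℕ} (h : i + τ = 2 * k + 1) : idx d j τ i = d * k + j + 1 := by
  unfold idx
  rw [show (i + τ) / 2 = k by omega, show (i + τ) % 2 = 1 by omega]

theorem idx_lt {d j τ i m : ℕ} (hj : j < d) (hτ : τ ≤ 1) (hi : i < m + 1) :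
    idx d j τ i < d * (m + 1) + d + 1 := by
  unfold idx
  have : d * ((i + τ) / 2) ≤ d * (m + 1) := Nat.mul_le_mul_left _ (by omega)
  omega

theorem idx_succ {d j τ : ℕ} (hd : 2 ≤ d) (i : ℕ) : idx d j τ i < idx d j τ (i + 1) := by
  rcases Nat.even_or_odd' (i + τ) with ⟨k, h | h⟩
  · rw [idx_even h, idx_odd (k := k) (by omega)]; omega
  · rw [idx_odd h, idx_even (k := k + 1) (by omega), mul_add]; omega

theorem idx_sm {d j τ : ℕ} (hd : 2 ≤ d) : StrictMono (idx d j τ) :=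
  strictMono_nat_of_lt_succ (idx_succ hd)

theorem sm_comp {d j τ m : ℕ} (hd : 2 ≤ d) (hj : j < d) (hτ : τ ≤ 1) {z : ℕ → ℕ}
    (hz : SM (d * (m + 1) + d + 1) z) : SM (m + 1) (z ∘ idx d j τ) :=
  fun _ _ h h' => hz _ _ (idx_sm hd h) (idx_lt hj hτ h')

def Gap (m lo : ℕ) (t : ℝ) (g : ℕ →₀ ℝ) (s : ℕ → ℕ) (par : ℕ) : Prop :=
  ∀ i, lo ≤ i → i + lo < m →
    ((i + par) % 2 = 0 → ∀ k, s i < k → k ≤ s (i + 1) → Lk k g = t) ∧
    ((i + par) % 2 = 1 → ∃ k, s i < k ∧ k ≤ s (i + 1) ∧ Lk k g = -t)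

theorem nest {d j j' τ τ' m lo : ℕ} (hj : j < d) (hj' : j' < d) (hτ : τ ≤ 1) (hτ' : τ' ≤ 1)
    (hjj : j ≠ j') {z : ℕ → ℕ} (hz : SM (d * (m + 1) + d + 1) z) {t : ℝ} {g : ℕ →₀ ℝ}
    (h : Gap m lo t g (z ∘ idx d j' τ') (τ' + 1)) : Gap m (lo + 2) t g (z ∘ idx d j τ) τ := by
  intro i h1 h2
  have mono : ∀ {a b a' b' : ℕ} (i i' : ℕ), a < d → b ≤ 1 → a' < d → b' ≤ 1 → i' < m + 1 →
      idx d a b i ≤ idx d a' b' i' → z (idx d a b i) ≤ z (idx d a' b' i') :=
    fun i i' _ _ h3 h4 h5 h6 => hz.le h6 (idx_lt h3 h4 h5)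
  simp only [Function.comp]
  constructor
  · intro hpar k hk1 hk2
    obtain ⟨q, hq⟩ : ∃ q, i + τ = 2 * (q + 1) := ⟨(i + τ) / 2 - 1, by omega⟩
    rcases lt_or_gt_of_ne hjj with hlt | hlt
    · refine (h (2 * q + 1 - τ') (by omega) (by omega)).1 (by omega) k
        (lt_of_le_of_lt (mono _ _ hj' hτ' hj hτ (by omega) ?_) hk1)
        (hk2.trans (mono _ _ hj hτ hj' hτ' (by omega) ?_))
      · rw [idx_even hq, idx_odd (k := q) (by omega), mul_add]; omega
      · rw [idx_odd (k := q + 1) (by omega), idx_even (k := q + 1) (by omega)]; omega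
    · refine (h (2 * q + 3 - τ') (by omega) (by omega)).1 (by omega) k
        (lt_of_le_of_lt (mono _ _ hj' hτ' hj hτ (by omega) ?_) hk1)
        (hk2.trans (mono _ _ hj hτ hj' hτ' (by omega) ?_))
      · rw [idx_even hq, idx_odd (k := q + 1) (by omega)]; omega
      · rw [idx_odd (k := q + 1) (by omega), idx_even (k := q + 1 + 1) (by omega), mul_add d (q + 1)]
        omega
  · intro hpar
    obtain ⟨q, hq⟩ : ∃ q, i + τ = 2 * q + 1 := ⟨(i + τ) / 2, by omega⟩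
    rcases lt_or_gt_of_ne hjj with hlt | hlt
    · obtain ⟨k, hk1, hk2, hk⟩ := (h (2 * q - τ') (by omega) (by omega)).2 (by omega)
      refine ⟨k, lt_of_le_of_lt (mono _ _ hj hτ hj' hτ' (by omega) ?_) hk1,
        hk2.trans (mono _ _ hj' hτ' hj hτ (by omega) ?_), hk⟩
      · rw [idx_odd hq, idx_even (k := q) (by omega)]; omega
      · rw [idx_odd (k := q) (by omega), idx_even (k := q + 1) (by omega), mul_add]; omega
    · obtain ⟨k, hk1, hk2, hk⟩ := (h (2 * q + 2 - τ') (by omega) (by omega)).2 (by omega)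
      refine ⟨k, lt_of_le_of_lt (mono _ _ hj hτ hj' hτ' (by omega) ?_) hk1,
        hk2.trans (mono _ _ hj' hτ' hj hτ (by omega) ?_), hk⟩
      · rw [idx_odd hq, idx_even (k := q + 1) (by omega), mul_add]; omega
      · rw [idx_odd (k := q + 1) (by omega), idx_even (k := q + 1) (by omega)]; omega

theorem Gap.add {m lo : ℕ} {t : ℝ} {g : ℕ →₀ ℝ} {s : ℕ → ℕ} {τ : ℕ} (hs : SM (m + 1) s)
    (h : Gap m lo t g s τ) : Gap m lo (t + 1) (g + (-1 : ℝ) ^ τ • Om m s) s τ := by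
  intro i h1 h2
  have key : ∀ k, s i < k → k ≤ s (i + 1) →
      Lk k (g + (-1 : ℝ) ^ τ • Om m s) = Lk k g + (-1) ^ (i + τ) := fun k hk1 hk2 => by
    rw [map_add, map_smul, Lk_Om hs (by omega) hk1 hk2, smul_eq_mul, pow_add, mul_comm]
  refine ⟨fun hp k hk1 hk2 => ?_, fun hp => ?_⟩
  · rw [key k hk1 hk2, (h i h1 h2).1 hp k hk1 hk2, Even.neg_one_pow (Nat.even_iff.mpr hp)]
  · obtain ⟨k, hk1, hk2, hk⟩ := (h i h1 h2).2 hp
    refine ⟨k, hk1, hk2, ?_⟩
    rw [key k hk1 hk2, hk, Odd.neg_one_pow (Nat.odd_iff.mpr hp)]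
    ring

theorem Gap.congr {m lo : ℕ} {t : ℝ} {g : ℕ →₀ ℝ} {s s' : ℕ → ℕ} {τ τ' : ℕ}
    (hs : ∀ i < m + 1, s i = s' i) (hτ : τ % 2 = τ' % 2) (h : Gap m lo t g s τ) :
    Gap m lo t g s' τ' := by
  intro i h1 h2
  rw [← hs i (by omega), ← hs (i + 1) (by omega), show (i + τ') % 2 = (i + τ) % 2 by omega]
  exact h i h1 h2

theorem Gap.zero {m lo : ℕ} {s : ℕ → ℕ} (hs : SM (m + 1) s) (τ : ℕ) : Gap m lo 0 0 s τ :=
  fun i _ h2 => ⟨fun _ _ _ _ => by simp,
    fun _ => ⟨s (i + 1), hs _ _ (by omega) (by omega), le_rfl, by simp⟩⟩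

theorem Gap.merge {m lo : ℕ} {t : ℝ} {g : ℕ →₀ ℝ} (hg : tot g = 0) {s : ℕ → ℕ} {τ : ℕ}
    (hs : SM (m + lo + lo + 1) s) (h : Gap (m + lo + lo) lo t g s τ) :
    ∃ f : ℕ → ℕ, Monotone f ∧ g.mapDomain f = (t * (-1) ^ (lo + τ)) • Om m id := by
  have : ∀ i, ∃ k, i < m → s (i + lo) < k ∧ k ≤ s (i + lo + 1) ∧
      Lk k g = t * (-1) ^ (lo + τ) * (-1) ^ i := fun i => by
    by_cases hi : i < m
    · have h1 := h (i + lo) (by omega) (by omega)
      rw [mul_assoc, ← pow_add, show lo + τ + i = i + lo + τ by omega]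
      rcases Nat.mod_two_eq_zero_or_one (i + lo + τ) with hp | hp
      · have h2 := hs (i + lo) (i + lo + 1) (by omega) (by omega)
        refine ⟨s (i + lo + 1), fun _ => ⟨h2, le_rfl, ?_⟩⟩
        rw [h1.1 hp _ h2 le_rfl, Even.neg_one_pow (Nat.even_iff.mpr hp), mul_one]
      · obtain ⟨k, hk1, hk2, hk⟩ := h1.2 hp
        refine ⟨k, fun _ => ⟨hk1, hk2, ?_⟩⟩
        rw [hk, Odd.neg_one_pow (Nat.odd_iff.mpr hp)]; ring
    · exact ⟨0, fun h => absurd h hi⟩
  choose k hk using this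
  refine ⟨_, cntf_mono m k, Vale.Agent.P125.merge hg (fun i j hij hj => ?_) fun i hi => (hk i hi).2.2⟩
  have h1 := (hk i (by omega)).2.1
  have h2 := (hk j hj).1
  have h3 := hs.le (i := i + lo + 1) (j := j + lo) (by omega) (by omega)
  omega

section
variable {Φ K : Type} [Fintype Φ] (wt : Φ → ℝ) (key : Φ → K) (ty : Φ → Bool)

open Classical in
noncomputable def mass (b : Bool) (s : K) : ℝ := ∑ φ, if key φ = s ∧ ty φ = b then wt φ else 0

open Classical in
noncomputable def WW (δ : Φ × Φ) : ℝ :=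
  if key δ.2 = key δ.1 ∧ ty δ.2 = !ty δ.1 then
    wt δ.1 * wt δ.2 / max (mass wt key ty false (key δ.1)) (mass wt key ty true (key δ.1)) else 0

theorem WW_row (φ : Φ) : ∑ ψ, WW wt key ty (φ, ψ) = wt φ * (mass wt key ty (!ty φ) (key φ) /
    max (mass wt key ty false (key φ)) (mass wt key ty true (key φ))) := by
  rw [mass, Finset.sum_div, Finset.mul_sum]
  refine Finset.sum_congr rfl fun ψ _ => ?_
  simp only [WW]
  split_ifs
  · ring
  · simp

theorem WW_swap (δ : Φ × Φ) : WW wt key ty δ.swap = WW wt key ty δ := by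
  simp only [WW, Prod.fst_swap, Prod.snd_swap]
  by_cases h : key δ.2 = key δ.1 ∧ ty δ.2 = !ty δ.1
  · rw [if_pos h, if_pos ⟨h.1.symm, by simp [h.2]⟩, h.1, mul_comm]
  · rw [if_neg h, if_neg fun h' => h ⟨h'.1.symm, by simp [h'.2]⟩]

variable {wt} (hw : ∀ φ, 0 ≤ wt φ)
include hw

theorem mass_nonneg (b : Bool) (s : K) : 0 ≤ mass wt key ty b s :=
  Finset.sum_nonneg fun φ _ => by have := hw φ; split_ifs <;> first | exact this | exact le_rfl

theorem WW_nonneg (δ : Φ × Φ) : 0 ≤ WW wt key ty δ := by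
  unfold WW
  split_ifs
  · exact div_nonneg (mul_nonneg (hw _) (hw _)) (le_max_of_le_left (mass_nonneg key ty hw _ _))
  · exact le_rfl

theorem WW_row_le (φ : Φ) : ∑ ψ, WW wt key ty (φ, ψ) ≤ wt φ := by
  rw [WW_row]
  refine mul_le_of_le_one_right (hw _) (div_le_one_of_le₀ ?_
    (le_max_of_le_left (mass_nonneg key ty hw _ _)))
  cases ty φ
  · exact le_max_right _ _
  · exact le_max_left _ _

open Classical in
theorem WW_tot : ∑ φ, wt φ - ∑ s ∈ univ.image key,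
    |mass wt key ty false s - mass wt key ty true s| ≤ ∑ δ, WW wt key ty δ := by
  rw [Fintype.sum_prod_type, sub_le_comm, ← Finset.sum_sub_distrib,
    ← Finset.sum_fiberwise_of_maps_to (s := univ) (t := univ.image key) (g := key)
      fun φ _ => mem_image_of_mem _ (mem_univ φ)]
  refine Finset.sum_le_sum fun s _ => ?_
  set a := mass wt key ty false s with ha
  set b := mass wt key ty true s with hb
  have e : ∑ φ with key φ = s, (wt φ - ∑ ψ, WW wt key ty (φ, ψ)) =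
      a * (1 - b / max a b) + b * (1 - a / max a b) := by
    rw [Finset.sum_filter]
    nth_rw 1 [ha]
    nth_rw 3 [hb]
    rw [mass, mass, Finset.sum_mul, Finset.sum_mul, ← Finset.sum_add_distrib]
    refine Finset.sum_congr rfl fun φ _ => ?_
    by_cases hk : key φ = s
    · rw [WW_row, hk, ← ha, ← hb]
      cases hφ : ty φ
      · simp [← hb]; ring
      · simp [← ha]; ring
    · simp [hk]
  rw [e]
  have ha0 : 0 ≤ a := mass_nonneg key ty hw _ _
  have hb0 : 0 ≤ b := mass_nonneg key ty hw _ _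
  clear_value a b
  rcases le_total a b with h | h
  · rw [max_eq_right h, abs_of_nonpos (by linarith)]
    rcases hb0.eq_or_lt with h0 | h0
    · have : a = 0 := by linarith
      simp [this, ← h0]
    · field_simp; ring_nf; rfl
  · rw [max_eq_left h, abs_of_nonneg (by linarith)]
    rcases ha0.eq_or_lt with h0 | h0
    · have : b = 0 := by linarith
      simp [this, ← h0]
    · field_simp; ring_nf; rfl

end

end Vale.Agent.P125
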