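import Vale.Agent.P125.Renorm

namespace Vale.Agent.P125

open Filter Topology Finset

def ps (k : ℕ) (a : ℕ → ℝ) : ℝ := ∑ i ∈ range k, a i

theorem ps_succ (k : ℕ) (a : ℕ → ℝ) : ps (k + 1) a = a 0 + ps k (fun i => a (i + 1)) := by
  unfold ps; rw [Finset.sum_range_succ', add_comm]

@[simp] theorem ps_zero (a : ℕ → ℝ) : ps 0 a = 0 := by simp [ps]

structure James (p C θ : ℝ) (N : ℕ) (R : (ℕ → ℝ) → ℝ) : Prop where
  mt : MT p C R
  up : ∀ i, R (Pi.single i 1) ≤ 1
  low : ∀ a, ps N a = 0 → ∀ k ≤ N, (θ * |ps k a|) ^ p ≤ R a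

variable {X : Type*} [NormedAddCommGroup X] [NormedSpace ℝ X] {p C : ℝ}

def stepL (u : X) : X × (ℕ → ℝ) →ₗ[ℝ] X × (ℕ → ℝ) where
  toFun w := (w.1 + w.2 0 • u, fun i => w.2 (i + 1))
  map_add' x y := by
    ext
    · simp only [Prod.fst_add, Prod.snd_add, Pi.add_apply, add_smul]; abel
    · simp
  map_smul' c x := by
    ext
    · simp [smul_add, smul_smul]
    · simp

theorem stepL_apply (u z : X) (a : ℕ → ℝ) :
    stepL u (z, a) = (z + a 0 • u, fun i => a (i + 1)) := rfl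

def negL : X × (ℕ → ℝ) →ₗ[ℝ] X × (ℕ → ℝ) := LinearMap.prodMap (-LinearMap.id) LinearMap.id

theorem negL_apply (z : X) (a : ℕ → ℝ) : negL (z, a) = (-z, a) := rfl

structure Base (p C : ℝ) (Φ : X × (ℕ → ℝ) → ℝ) : Prop where
  mt : MT p C Φ
  up0 : ∀ z, Φ (z, 0) ≤ ‖z‖ ^ p
  up1 : ∀ i, Φ (0, Pi.single i 1) ≤ 1

theorem Base.mix {Φ Ψ : X × (ℕ → ℝ) → ℝ} (h : Base p C Φ) (h' : Base p C Ψ) {a b : ℝ}
    (ha : 0 ≤ a) (hb : 0 ≤ b) (hab : a + b = 1) : Base p C (fun w => a * Φ w + b * Ψ w) := by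
  refine ⟨h.mt.mix h'.mt ha hb, fun z => ?_, fun i => ?_⟩
  · have h1 := mul_le_mul_of_nonneg_left (h.up0 z) ha
    have h2 := mul_le_mul_of_nonneg_left (h'.up0 z) hb
    have : ‖z‖ ^ p = a * ‖z‖ ^ p + b * ‖z‖ ^ p := by rw [← add_mul, hab, one_mul]
    linarith
  · have h1 := mul_le_mul_of_nonneg_left (h.up1 i) ha
    have h2 := mul_le_mul_of_nonneg_left (h'.up1 i) hb
    linarith

theorem Base.neg {Φ : X × (ℕ → ℝ) → ℝ} (h : Base p C Φ) : Base p C (fun w => Φ (negL w)) := by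
  refine ⟨h.mt.comp _, fun z => ?_, fun i => ?_⟩
  · simpa [negL_apply] using h.up0 (-z)
  · simpa [negL_apply] using h.up1 i

theorem Base.step (hp : 0 ≤ p) {Φ : X × (ℕ → ℝ) → ℝ} (h : Base p C Φ) {u : X} (hu : ‖u‖ ≤ 1) :
    Base p C (fun w => Φ (stepL u w)) := by
  refine ⟨h.mt.comp _, fun z => ?_, fun i => ?_⟩
  · have := h.up0 z
    simp only [stepL_apply, Pi.zero_apply, zero_smul, add_zero]
    exact this
  · simp only [stepL_apply]
    cases i with
    | zero =>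
      have e : (fun i => (Pi.single 0 1 : ℕ → ℝ) (i + 1)) = 0 := by ext i; simp
      rw [e]
      simpa using (h.up0 u).trans (Real.rpow_le_one (norm_nonneg _) hu hp)
    | succ i =>
      have e : (fun j => (Pi.single (i + 1) 1 : ℕ → ℝ) (j + 1)) = Pi.single i 1 := by
        ext j; simp [Pi.single_apply]
      rw [e]
      simpa using h.up1 i

theorem Base.init (hp : 0 < p) (h : MT p C (fun x : X => ‖x‖ ^ p)) :
    Base p C (fun w : X × (ℕ → ℝ) => ‖w.1‖ ^ p) :=
  ⟨h.comp (LinearMap.fst ℝ X (ℕ → ℝ)), fun z => le_rfl, fun i => by simp [Real.zero_rpow hp.ne']⟩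

theorem Base.snd {Φ : X × (ℕ → ℝ) → ℝ} (h : Base p C Φ) : MT p C (fun a => Φ (0, a)) :=
  h.mt.comp (LinearMap.inr ℝ X (ℕ → ℝ))

def GC (p C ε : ℝ) (n : ℕ) : Set X :=
  {x | ‖x‖ ≤ 1 ∧ ∃ Φ : X × (ℕ → ℝ) → ℝ, Base p C Φ ∧ (∀ z a, ‖z + ps n a • x‖ ^ p ≤ Φ (z, a)) ∧
    ∀ z a k, k < n → (ε / 2 * |ps n a - ps k a|) ^ p ≤ Φ (z, a)}

theorem chain_GC (hp : 1 ≤ p) (h : MT p C (fun x : X => ‖x‖ ^ p)) {ε : ℝ} (hε : 0 < ε) :
    Chain ε (GC (X := X) p C ε) := by
  refine ⟨fun n => ?_, fun n => ?_, fun x hx => ?_, fun n => ?_⟩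
  · rintro x ⟨hx, Φ, b1, h1, h1'⟩ y ⟨hy, Ψ, b2, h2, h2'⟩ a b ha hb hab
    refine ⟨?_, _, b1.mix b2 ha hb hab, fun z c => ?_, fun z c k hk => ?_⟩
    · refine (norm_add_le _ _).trans ?_
      rw [norm_smul, norm_smul, Real.norm_of_nonneg ha, Real.norm_of_nonneg hb]
      nlinarith
    · have e : z + ps n c • (a • x + b • y) = a • (z + ps n c • x) + b • (z + ps n c • y) := by
        have : z = a • z + b • z := by rw [← add_smul, hab, one_smul]
        conv_lhs => rw [this]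
        simp only [smul_add, smul_comm (ps n c)]
        abel
      rw [e]
      refine (norm_rpow_conv hp _ _ ha hb hab).trans ?_
      exact add_le_add (mul_le_mul_of_nonneg_left (h1 z c) ha) (mul_le_mul_of_nonneg_left (h2 z c) hb)
    · have e1 := mul_le_mul_of_nonneg_left (h1' z c k hk) ha
      have e2 := mul_le_mul_of_nonneg_left (h2' z c k hk) hb
      have : ∀ r : ℝ, r = a * r + b * r := fun r => by rw [← add_mul, hab, one_mul]
      rw [this ((ε / 2 * |ps n c - ps k c|) ^ p)]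
      linarith
  · rintro x ⟨hx, Φ, b1, h1, h1'⟩
    refine ⟨by simpa using hx, _, b1.neg, fun z c => ?_, fun z c k hk => h1' _ c k hk⟩
    have := h1 (-z) c
    rw [← norm_neg] at this
    simpa [negL_apply, add_comm] using this
  · exact ⟨hx, _, Base.init (by linarith) h, fun z c => by simp, fun z c k hk => by omega⟩
  · rintro x ⟨hx, Φ, b1, h1, h1'⟩ y ⟨hy, Ψ, b2, h2, h2'⟩ hxy
    have hh : (0 : ℝ) ≤ 1 / 2 := by norm_num
    have h11 : (1 / 2 : ℝ) + 1 / 2 = 1 := by norm_num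
    have key : ∀ z c, (1 / 2 : ℝ) * ‖z + ps (n + 1) c • x‖ ^ p + 1 / 2 * ‖z + ps (n + 1) c • y‖ ^ p ≤
        1 / 2 * Φ (stepL x (z, c)) + 1 / 2 * Ψ (stepL y (z, c)) := by
      intro z c
      have e1 := h1 (z + c 0 • x) (fun i => c (i + 1))
      have e2 := h2 (z + c 0 • y) (fun i => c (i + 1))
      rw [add_assoc, ← add_smul, ← ps_succ] at e1 e2
      rw [stepL_apply, stepL_apply]
      linarith
    refine ⟨?_, _, (b1.step (by linarith) hx).mix (b2.step (by linarith) hy) hh hh h11,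
      fun z c => ?_, fun z c k hk => ?_⟩
    · rw [norm_smul]
      have := norm_add_le x y
      norm_num
      linarith
    · refine le_trans ?_ (key z c)
      refine le_trans (le_of_eq ?_) (norm_rpow_conv hp _ _ hh hh h11)
      congr 2
      module
    · cases k with
      | zero =>
        refine le_trans ?_ (key z c)
        have := norm_rpow_conv hp (z + ps (n + 1) c • x) (-(z + ps (n + 1) c • y)) hh hh h11
        rw [norm_neg] at this
        refine le_trans (Real.rpow_le_rpow (by positivity) ?_ (by linarith)) this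
        have e : (1 / 2 : ℝ) • (z + ps (n + 1) c • x) + (1 / 2 : ℝ) • -(z + ps (n + 1) c • y) =
            (ps (n + 1) c / 2) • (x - y) := by module
        rw [e, norm_smul, Real.norm_eq_abs, abs_div, ps_zero, sub_zero]
        have := mul_le_mul_of_nonneg_left hxy (abs_nonneg (ps (n + 1) c))
        norm_num
        linarith
      | succ k =>
        have e1 := h1' (z + c 0 • x) (fun i => c (i + 1)) k (by omega)
        have e2 := h2' (z + c 0 • y) (fun i => c (i + 1)) k (by omega)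
        rw [ps_succ, ps_succ, add_sub_add_left_eq_sub, stepL_apply, stepL_apply]
        linarith

theorem james_of_GC (hp : 0 < p) {ε : ℝ} {N : ℕ} (h : (GC (X := X) p C ε N).Nonempty) :
    ∃ R, James p C (ε / 2) N R := by
  obtain ⟨x, -, Φ, b, -, h2⟩ := h
  refine ⟨_, b.snd, b.up1, fun a ha k hk => ?_⟩
  rcases hk.lt_or_eq with hk | rfl
  · simpa [ha] using h2 0 a k hk
  · simpa [ha, Real.zero_rpow hp.ne'] using b.mt.nonneg _

def GS (p C ε : ℝ) (n : ℕ) : Set (X →L[ℝ] ℝ) :=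
  {ξ | ‖ξ‖ ≤ 1 ∧ ∃ Φ : X × (ℕ → ℝ) → ℝ, Base p C Φ ∧ (∀ z a, ‖z‖ ^ p ≤ Φ (z, a)) ∧
    ∀ z a j, j ≤ n → ‖ξ z + ε / 4 * ps j a‖ ^ p ≤ Φ (z, a)}

theorem apply_rpow_le (hp : 0 ≤ p) {ξ : X →L[ℝ] ℝ} (h : ‖ξ‖ ≤ 1) (z : X) : ‖ξ z‖ ^ p ≤ ‖z‖ ^ p :=
  Real.rpow_le_rpow (norm_nonneg _)
    ((ξ.le_opNorm z).trans (mul_le_of_le_one_left (norm_nonneg _) h)) hp

theorem chain_GS (hp : 1 ≤ p) (h : MT p C (fun x : X => ‖x‖ ^ p)) {ε : ℝ} (hε : 0 < ε) :
    Chain ε (GS (X := X) p C ε) := by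
  refine ⟨fun n => ?_, fun n => ?_, fun x hx => ?_, fun n => ?_⟩
  · rintro x ⟨hx, Φ, b1, h1, h1'⟩ y ⟨hy, Ψ, b2, h2, h2'⟩ a b ha hb hab
    refine ⟨?_, _, b1.mix b2 ha hb hab, fun z c => ?_, fun z c k hk => ?_⟩
    · refine (norm_add_le _ _).trans ?_
      rw [norm_smul, norm_smul, Real.norm_of_nonneg ha, Real.norm_of_nonneg hb]
      nlinarith
    · have e1 := mul_le_mul_of_nonneg_left (h1 z c) ha
      have e2 := mul_le_mul_of_nonneg_left (h2 z c) hb
      have : ∀ r : ℝ, r = a * r + b * r := fun r => by rw [← add_mul, hab, one_mul]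
      rw [this (‖z‖ ^ p)]
      linarith
    · have e : (a • x + b • y) z + ε / 4 * ps k c =
          a • (x z + ε / 4 * ps k c) + b • (y z + ε / 4 * ps k c) := by
        simp only [ContinuousLinearMap.add_apply, ContinuousLinearMap.smul_apply, smul_eq_mul]
        linear_combination (-(ε / 4 * ps k c)) * hab
      rw [e]
      refine (norm_rpow_conv hp _ _ ha hb hab).trans ?_
      exact add_le_add (mul_le_mul_of_nonneg_left (h1' z c k hk) ha)
        (mul_le_mul_of_nonneg_left (h2' z c k hk) hb)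
  · rintro x ⟨hx, Φ, b1, h1, h1'⟩
    refine ⟨by simpa using hx, _, b1.neg, fun z c => ?_, fun z c k hk => ?_⟩
    · simpa [negL_apply] using h1 (-z) c
    · simpa [negL_apply] using h1' (-z) c k hk
  · refine ⟨hx, _, Base.init (by linarith) h, fun z c => le_rfl, fun z c k hk => ?_⟩
    obtain rfl : k = 0 := by omega
    simpa using apply_rpow_le (by linarith) hx z
  · rintro x ⟨hx, Φ, b1, h1, h1'⟩ y ⟨hy, Ψ, b2, h2, h2'⟩ hxy
    have hh : (0 : ℝ) ≤ 1 / 2 := by norm_num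
    have h11 : (1 / 2 : ℝ) + 1 / 2 = 1 := by norm_num
    obtain ⟨v, hv, hv'⟩ : ∃ v : X, ‖v‖ ≤ 1 ∧ x v - y v = ε / 2 := by
      obtain ⟨v, hv, hv'⟩ := (x - y).exists_lt_apply_of_lt_opNorm (r := ε / 2) (by linarith)
      have h0 : (x - y) v ≠ 0 := by
        intro h0; rw [h0] at hv'; simp at hv'; linarith
      refine ⟨(ε / 2 / (x - y) v) • v, ?_, ?_⟩
      · rw [norm_smul, norm_div, Real.norm_of_nonneg (by positivity)]
        exact mul_le_one₀ (div_le_one_of_le₀ hv'.le (norm_nonneg _)) (norm_nonneg _) hv.le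
      · rw [← ContinuousLinearMap.sub_apply, map_smul, smul_eq_mul]
        field_simp
    have hm : ‖(1 / 2 : ℝ) • (x + y)‖ ≤ 1 := by
      rw [norm_smul]
      have := norm_add_le x y
      norm_num
      linarith
    have hz : ∀ z c, ‖z‖ ^ p ≤ 1 / 2 * Φ (stepL v (z, c)) + 1 / 2 * Ψ (stepL (-v) (z, c)) := by
      intro z c
      have e1 := h1 (z + c 0 • v) (fun i => c (i + 1))
      have e2 := h2 (z + c 0 • (-v)) (fun i => c (i + 1))
      have e3 := norm_rpow_conv hp (z + c 0 • v) (z + c 0 • (-v)) hh hh h11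
      have e : (1 / 2 : ℝ) • (z + c 0 • v) + (1 / 2 : ℝ) • (z + c 0 • (-v)) = z := by module
      rw [e] at e3
      rw [stepL_apply, stepL_apply]
      linarith
    refine ⟨hm, _, (b1.step (by linarith) hv).mix (b2.step (u := -v) (by linarith)
      (by simpa using hv)) hh hh h11, hz, fun z c k hk => ?_⟩
    cases k with
    | zero =>
      refine le_trans ?_ (hz z c)
      simpa using apply_rpow_le (by linarith) hm z
    | succ k =>
      have e1 := h1' (z + c 0 • v) (fun i => c (i + 1)) k (by omega)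
      have e2 := h2' (z + c 0 • (-v)) (fun i => c (i + 1)) k (by omega)
      have e3 := norm_rpow_conv hp (x (z + c 0 • v) + ε / 4 * ps k (fun i => c (i + 1)))
        (y (z + c 0 • (-v)) + ε / 4 * ps k (fun i => c (i + 1))) hh hh h11
      have e : (1 / 2 : ℝ) • (x (z + c 0 • v) + ε / 4 * ps k (fun i => c (i + 1))) +
          (1 / 2 : ℝ) • (y (z + c 0 • (-v)) + ε / 4 * ps k (fun i => c (i + 1))) =
          ((1 / 2 : ℝ) • (x + y)) z + ε / 4 * ps (k + 1) c := by
        simp only [ContinuousLinearMap.add_apply, ContinuousLinearMap.smul_apply, smul_eq_mul,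
          map_add, map_smul, map_neg, ps_succ]
        linear_combination (c 0 / 2) * hv'
      rw [e] at e3
      rw [stepL_apply, stepL_apply]
      linarith

theorem james_of_GS {ε : ℝ} (hε : 0 < ε) {N : ℕ} (h : (GS (X := X) p C ε N).Nonempty) :
    ∃ R, James p C (ε / 4) N R := by
  obtain ⟨x, -, Φ, b, -, h2⟩ := h
  refine ⟨_, b.snd, b.up1, fun a _ k hk => ?_⟩
  have := h2 0 a k hk
  rwa [map_zero, zero_add, Real.norm_eq_abs, abs_mul, abs_of_pos (by positivity)] at this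

/-- A uniformly convex equivalent norm on the dual gives a uniformly smooth one on the space. -/
theorem us_of_dual_uc (M : Seminorm ℝ (X →L[ℝ] ℝ)) (hM : ∀ ξ, ‖ξ‖ ≤ M ξ ∧ M ξ ≤ 2 * ‖ξ‖)
    (huc : IsUnifConvex M) : ∃ N : Seminorm ℝ X, IsEquivNorm N ∧ IsUnifSmooth N := by
  set T : X → Set ℝ := fun x => (fun ξ : X →L[ℝ] ℝ => ξ x) '' {ξ | M ξ ≤ 1} with hT
  have hub : ∀ x, ∀ r ∈ T x, r ≤ ‖x‖ := by
    rintro x _ ⟨ξ, hξ, rfl⟩
    exact (le_abs_self _).trans ((ξ.le_opNorm x).trans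
      (mul_le_of_le_one_left (norm_nonneg _) ((hM ξ).1.trans hξ)))
  have hne : ∀ x, (T x).Nonempty := fun x => ⟨_, 0, by simp, rfl⟩
  have hle : ∀ x ξ, M ξ ≤ 1 → ξ x ≤ sSup (T x) := fun x ξ h =>
    le_csSup ⟨_, hub x⟩ ⟨ξ, h, rfl⟩
  have hsup : ∀ x r, (∀ ξ, M ξ ≤ 1 → ξ x ≤ r) → sSup (T x) ≤ r := fun x r h =>
    csSup_le (hne x) (by rintro _ ⟨ξ, hξ, rfl⟩; exact h ξ hξ)
  have happ : ∀ x r, r < sSup (T x) → ∃ ξ, M ξ ≤ 1 ∧ r < ξ x := fun x r h => by
    obtain ⟨_, ⟨ξ, hξ, rfl⟩, h'⟩ := exists_lt_of_lt_csSup (hne x) h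
    exact ⟨ξ, hξ, h'⟩
  have hle' : ∀ x ξ, ξ x ≤ M ξ * sSup (T x) := fun x ξ => by
    rcases eq_or_ne ξ 0 with rfl | h0
    · simp
    have hpos : 0 < M ξ := lt_of_lt_of_le (norm_pos_iff.mpr h0) (hM ξ).1
    have := hle x ((M ξ)⁻¹ • ξ) (by
      rw [map_smul_eq_mul, Real.norm_of_nonneg (by positivity), inv_mul_cancel₀ hpos.ne'])
    rw [ContinuousLinearMap.smul_apply, smul_eq_mul, inv_mul_le_iff₀ hpos] at this
    exact this
  set N : Seminorm ℝ X := Seminorm.ofSMulLE (fun x => sSup (T x))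
    (le_antisymm (hsup 0 0 fun ξ _ => by simp) (by simpa using hle 0 0 (by simp)))
    (fun x y => hsup _ _ fun ξ h => by rw [map_add]; exact add_le_add (hle x ξ h) (hle y ξ h))
    (fun c x => hsup _ _ fun ξ h => by
      have h1 := hle' x (c • ξ)
      rw [map_smul_eq_mul] at h1
      have h0 : 0 ≤ sSup (T x) := by simpa using hle x 0 (by simp)
      have h2 := mul_le_mul_of_nonneg_right (mul_le_of_le_one_right (norm_nonneg c) h) h0
      rw [map_smul]
      exact h1.trans h2) with hN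
  have hNa : ∀ x, N x = sSup (T x) := fun x => rfl
  simp only [← hNa] at hle hsup happ hle'
  clear_value N
  refine ⟨N, ⟨1 / 2, 1, by norm_num, by norm_num, fun x => ⟨?_, ?_⟩⟩, ?_⟩
  · obtain ⟨g, hg1, hg2⟩ := exists_dual_vector'' ℝ x
    have h1 := hle' x g
    have h2 := mul_le_mul_of_nonneg_right ((hM g).2.trans (by linarith : 2 * ‖g‖ ≤ 2))
      (apply_nonneg N x)
    simp only [RCLike.ofReal_real_eq_id, id] at hg2
    linarith
  · rw [one_mul, hNa]; exact csSup_le (hne x) (hub x)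
  · unfold IsUnifSmooth
    rw [Metric.tendsto_nhdsWithin_nhds]
    intro e he
    obtain ⟨δ, hδ, h⟩ := huc (min e 2) (by positivity) (min_le_right _ _)
    refine ⟨δ, hδ, fun τ hτ hτδ => ?_⟩
    have hτ0 : 0 < τ := hτ
    rw [Real.dist_eq, sub_zero, abs_of_pos hτ0] at hτδ
    have h0 : 0 ≤ rho N τ := by
      refine Real.sSup_nonneg ?_
      rintro _ ⟨x, y, hx, hy, rfl⟩
      have h1 := map_add_le_add N (x + τ • y) (x - τ • y)
      have e : x + τ • y + (x - τ • y) = (2 : ℝ) • x := by module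
      rw [e, map_smul_eq_mul, hx] at h1
      norm_num at h1
      linarith
    have h1 : rho N τ ≤ τ * e / 2 := by
      refine Real.sSup_le ?_ (by positivity)
      rintro _ ⟨x, y, hx, hy, rfl⟩
      refine le_of_forall_pos_le_add fun η hη => ?_
      obtain ⟨f, hf, hf'⟩ := happ (x + τ • y) _ (sub_lt_self _ hη)
      obtain ⟨g, hg, hg'⟩ := happ (x - τ • y) _ (sub_lt_self _ hη)
      have e1 := hle' x ((1 / 2 : ℝ) • (f + g))
      have e2 := hle' y (f - g)
      rw [hx, mul_one] at e1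
      rw [hy, mul_one] at e2
      simp only [ContinuousLinearMap.add_apply, ContinuousLinearMap.smul_apply, smul_eq_mul,
        ContinuousLinearMap.sub_apply, map_add, map_sub, map_smul] at e1 e2 hf' hg'
      have e3 := mul_le_mul_of_nonneg_left e2 hτ0.le
      by_cases hc : min e 2 ≤ M (f - g)
      · have e4 := h f g hf hg hc
        have e5 : M (f - g) ≤ 2 := by linarith [map_sub_le_add M f g]
        have e6 := mul_le_mul_of_nonneg_left e5 hτ0.le
        have : 0 < τ * e := by positivity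
        nlinarith
      · have e4 : M ((1 / 2 : ℝ) • (f + g)) ≤ 1 := by
          rw [map_smul_eq_mul]
          have := map_add_le_add M f g
          norm_num
          linarith
        have e5 : M (f - g) ≤ e := (not_le.mp hc).le.trans (min_le_left _ _)
        have e6 := mul_le_mul_of_nonneg_left e5 hτ0.le
        nlinarith
    rw [Real.dist_eq, sub_zero, abs_of_nonneg (div_nonneg h0 hτ0.le), div_lt_iff₀ hτ0]
    have : 0 < τ * e := by positivity
    nlinarith

end Vale.Agent.P125
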