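import Vale.Agent.P125.Graph

namespace Vale.Agent.P125

open Finset Filter Topology

variable {p C θ : ℝ} {R : (ℕ →₀ ℝ) → ℝ}

open Classical in
theorem chain_ineq (h : Spread p C θ R) (hp : 0 < p) (hC : 0 ≤ C) (t m : ℕ) :
    ∃ n : ℕ, 0 < n ∧ ∀ B : ℝ, 0 ≤ B → (∀ (g : ℕ →₀ ℝ) (s : ℕ → ℕ) (τ : ℕ), tot g = 0 →
      (∀ x ∈ g.support, x < n) → (∀ x, |g x| ≤ (t + 1 : ℕ) * m) → SM (m + 1) s →
      Gap m (2 * (t + 1)) (t + 1 : ℕ) g s τ → B ≤ R g) →
      5 / 8 * B ≤ C * (t + 1) * R (Om m id) := by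
  set d := 8 * (t + 1) with hd
  have hd2 : 2 ≤ d := by omega
  have hdr : (0 : ℝ) < d := by positivity
  have hdt : (d : ℝ) = 8 * (t + 1) := by rw [hd]; push_cast; ring
  clear_value d
  obtain ⟨ι, _, w, z, hw0, hw1, hz, htv⟩ := exists_tv (ρ := Fin d × Bool)
    (fun r => (if r.2 then -1 else 1) / (2 * d)) (by simp [Fintype.sum_prod_type, neg_div])
    (fun r => idx d r.1 r.2.toNat) (m + 1) (d * (m + 1) + d + 1)
    (fun r i j hij _ => idx_sm hd2 hij) (η := 1 / d) (by positivity)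
  set n := (univ ×ˢ range (d * (m + 1) + d + 1)).sup (fun x : ι × ℕ => z x.1 x.2) + 1 with hn
  refine ⟨n, by omega, fun B hB0 hB => ?_⟩
  set sq : ι × Fin d × Bool → ℕ → ℕ := fun φ => z φ.1 ∘ idx d φ.2.1 φ.2.2.toNat with hsq
  have hsm : ∀ φ, SM (m + 1) (sq φ) := fun φ => sm_comp hd2 φ.2.1.2 (Bool.toNat_le _) (hz _)
  have hsn : ∀ φ, ∀ i < m + 1, sq φ i < n := fun φ i hi => Nat.lt_succ_of_le
    (Finset.le_sup (f := fun x : ι × ℕ => z x.1 x.2) (b := (φ.1, idx d φ.2.1 φ.2.2.toNat i))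
      (by simpa using Nat.le_of_lt_succ (idx_lt φ.2.1.2 (Bool.toNat_le _) hi)))
  clear_value n
  set wt : ι × Fin d × Bool → ℝ := fun φ => w φ.1 / (2 * d) with hwt
  set key : ι × Fin d × Bool → ℕ → ℕ := fun φ => trunc (m + 1) (sq φ) with hkey
  set ty : ι × Fin d × Bool → Bool := fun φ => φ.2.2 with hty
  have hwt0 : ∀ φ, 0 ≤ wt φ := fun φ => div_nonneg (hw0 _) (by positivity)
  have hkeq : ∀ φ ψ, key ψ = key φ → ∀ i < m + 1, sq φ i = sq ψ i := fun φ ψ hk i hi => by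
    have := congrFun hk i
    simpa [hkey, trunc, hi] using this.symm
  have hrow : ∀ q : ι × Fin d × Bool → Prop,
      (∑ δ : (ι × Fin d × Bool) × (ι × Fin d × Bool), if q δ.1 then WW wt key ty δ else 0) ≤
        ∑ φ, if q φ then wt φ else 0 := fun q => by
    rw [Fintype.sum_prod_type]
    refine Finset.sum_le_sum fun φ _ => ?_
    by_cases hq : q φ
    · simpa [hq] using WW_row_le key ty hwt0 φ
    · simp [hq]
  have hF : IsFlow w (fun δ : (ι × Fin d × Bool) × (ι × Fin d × Bool) => δ.1.1) (fun δ => δ.2.1)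
      (WW wt key ty) Prod.swap := by
    refine ⟨hw0, hw1, WW_nonneg key ty hwt0, fun δ => rfl, fun δ => rfl, WW_swap wt key ty,
      fun x => ?_⟩
    refine le_trans (le_of_eq ?_) ((hrow fun φ => φ.1 = x).trans (le_of_eq ?_))
    · exact Finset.sum_congr rfl fun _ _ => by congr
    · rw [Fintype.sum_prod_type, Finset.sum_eq_single x (fun b _ hb => by simp [hb]) (by simp)]
      simp [hwt]
      field_simp
  set ω : (ι × Fin d × Bool) × (ι × Fin d × Bool) → ℕ →₀ ℝ := fun δ =>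
    if key δ.2 = key δ.1 ∧ ty δ.2 = !ty δ.1 then (-1 : ℝ) ^ δ.1.2.2.toNat • Om m (sq δ.1) else 0
    with hω
  have hWne : ∀ δ, WW wt key ty δ ≠ 0 → key δ.2 = key δ.1 ∧ ty δ.2 = !ty δ.1 := fun δ hδ => by
    by_contra hc
    exact hδ (by simp only [WW]; rw [if_neg hc])
  have hstep : ∀ (u : ℕ) (g : ℕ →₀ ℝ) δ, WW wt key ty δ ≠ 0 → tot g = 0 →
      (∀ x ∈ g.support, x < n) → (∀ x, |g x| ≤ u * m) →
      Gap m (2 * (u + 1)) u g (sq δ.1) δ.1.2.2.toNat →
      tot (g + ω δ) = 0 ∧ (∀ x ∈ (g + ω δ).support, x < n) ∧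
      (∀ x, |(g + ω δ) x| ≤ (u + 1 : ℕ) * m) ∧
      Gap m (2 * (u + 1)) (u + 1 : ℕ) (g + ω δ) (sq δ.2) (δ.2.2.2.toNat + 1) := by
    intro u g δ hδ h1 h2 h3 h4
    have hk := hWne δ hδ
    simp only [hω, if_pos hk]
    refine ⟨by rw [map_add, map_smul, tot_Om, h1]; simp, fun x hx => ?_, fun x => ?_, ?_⟩
    · rcases mem_union.mp (Finsupp.support_add hx) with hx | hx
      · exact h2 x hx
      · exact Om_supp (hsn _) x (Finsupp.support_smul hx)
    · rw [Finsupp.add_apply, Finsupp.smul_apply]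
      refine (abs_add_le _ _).trans ?_
      have := Om_abs m (sq δ.1) x
      have := h3 x
      simp only [smul_eq_mul, abs_mul, abs_pow, abs_neg, abs_one, one_pow, one_mul]
      push_cast
      linarith
    · push_cast
      refine (h4.add (hsm _)).congr (hkeq _ _ hk.1) ?_
      have := hk.2
      simp only [hty] at this
      rw [this]
      cases δ.1.2.2 <;> rfl
  have key1 := cocycle_main hF hC h.mt.mk' h.mt.nonneg (by
      simpa [Real.zero_rpow hp.ne'] using h.mt.hom 0 0) ω (fun δ => ?_) (η := 1 / d) (κ := 1 / d)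
    (A := R (Om m id)) (B := B) (by positivity) ?_ (fun δ δ' => δ'.1.2.1 ≠ δ.2.2.1) (fun δ => ?_)
    (fun u g δ => tot g = 0 ∧ (∀ x ∈ g.support, x < n) ∧ (∀ x, |g x| ≤ u * m) ∧
      Gap m (2 * u) u g (sq δ.2) (δ.2.2.2.toNat + 1)) (fun δ hδ => ?_)
    (fun u g δ δ' hI hδ hs hc => ?_) (h.mt.nonneg _) (fun δ hδ => ?_) hB0 t
    (fun g δ hI => hB g _ _ hI.1 hI.2.1 hI.2.2.1 (hsm _) hI.2.2.2) (2 * d)
  · refine le_trans (mul_le_mul_of_nonneg_right ?_ hB0) key1
    have h1 : (2 : ℝ) / ((2 * d : ℕ) + 2) ≤ 1 / d := by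
      rw [div_le_div_iff₀ (by positivity) hdr]; push_cast; linarith
    have h2 : ((t : ℝ) + 1) * (1 / d) = 1 / 8 := by rw [hdt]; field_simp
    have h3 := mul_le_mul_of_nonneg_left h1 (by positivity : (0 : ℝ) ≤ t + 1)
    linarith
  · simp only [hω, Prod.fst_swap, Prod.snd_swap]
    by_cases hk : key δ.2 = key δ.1 ∧ ty δ.2 = !ty δ.1
    · rw [if_pos hk, if_pos ⟨hk.1.symm, by simp [hk.2]⟩, Om_congr (hkeq _ _ hk.1), ← neg_smul]
      have := hk.2
      simp only [hty] at this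
      rw [this]
      cases δ.1.2.2 <;> simp
    · rw [if_neg hk, if_neg fun h' => hk ⟨h'.1.symm, by simp [h'.2]⟩, neg_zero]
  · refine le_trans ?_ (WW_tot key ty hwt0)
    have e1 : ∑ φ, wt φ = 1 := by
      rw [Fintype.sum_prod_type, ← hw1]
      refine Finset.sum_congr rfl fun v _ => ?_
      simp [hwt]
      field_simp
    rw [e1]
    refine sub_le_sub_left (le_trans (le_of_eq ?_) (htv (univ.image key))) 1
    refine Finset.sum_congr (by congr) fun s _ => ?_
    congr 1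
    rw [mass, mass, ← Finset.sum_sub_distrib, Fintype.sum_prod_type]
    refine Finset.sum_congr rfl fun v _ => Finset.sum_congr rfl fun r _ => ?_
    obtain ⟨j, b⟩ := r
    simp only [hkey, hsq, hty, hwt]
    by_cases hk : trunc (m + 1) (z v ∘ idx d j b.toNat) = s
    · simp only [hk, true_and, if_true]
      cases b <;> simp <;> ring
    · simp only [hk, false_and, if_false]
      simp
  · refine le_trans (le_of_eq ?_)
      ((hrow fun φ => φ.1 = δ.2.1 ∧ φ.2.1 = δ.2.2.1).trans (le_of_eq ?_))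
    · exact Finset.sum_congr rfl fun _ _ => by simp
    · rw [Fintype.sum_prod_type, Finset.sum_eq_single δ.2.1 (fun b _ hb => by simp [hb]) (by simp),
        Fintype.sum_prod_type, Finset.sum_eq_single δ.2.2.1 (fun b _ hb => by simp [hb]) (by simp)]
      simp [hwt]
      field_simp
  · have := hstep 0 0 δ hδ (by simp) (by simp) (by simp) (by simpa using Gap.zero (hsm _) _)
    simpa using this
  · refine hstep u g δ' hδ hI.1 hI.2.1 hI.2.2.1 ?_
    have h4 := hI.2.2.2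
    simp only [hsq] at h4 ⊢
    rw [← hs] at h4
    exact nest δ'.1.2.1.2 δ.2.2.1.2 (Bool.toNat_le _) (Bool.toNat_le _)
      (fun h' => hc (Fin.ext h')) (hz _) h4
  · simp only [hω, if_pos (hWne δ hδ)]
    rw [h.mt.hom, ← Om_map, h.inv _ _ (m + 1) (Om_supp (s := id) fun i hi => hi) (hsm _)]
    simp

theorem Spread.low_Om (h : Spread p C θ R) {m : ℕ} (hm : 0 < m) : θ ^ p ≤ R (Om m id) := by
  have := h.low _ (tot_Om m id) 1
  rwa [Lk_Om (s := id) (i := 0) (fun i j h _ => h) hm (by simp) (by simp), pow_zero, abs_one,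
    mul_one] at this

theorem key_step (h : Spread p C θ R) (hp : 1 < p) (hC : 0 ≤ C) (hθ : 0 < θ) {t : ℕ}
    (ht : 8 * (C + 1) ≤ ((t : ℝ) + 1) ^ (p - 1)) {m : ℕ} (hm : 0 < m) :
    ∃ B, 0 < B ∧ 2 * R (TB B (Om m id)) ≤ R (Om (m + 2 * (t + 1) + 2 * (t + 1)) id) := by
  have hp0 : 0 < p := by linarith
  obtain ⟨n, hn, H⟩ := chain_ineq h hp0 hC t (m + 2 * (t + 1) + 2 * (t + 1))
  set c : ℝ := (t + 1 : ℕ) * (m + 2 * (t + 1) + 2 * (t + 1) : ℕ) with hc
  have hc0 : 0 ≤ c := by positivity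
  have hθp : 0 < θ ^ p := by positivity
  obtain ⟨U, hU⟩ := exists_nat_ge (n * (n * c) ^ p / (θ ^ p / 2))
  have hB : 0 < U + n := by omega
  refine ⟨U + n, hB, ?_⟩
  have hl := (h.tb hB).low_Om hm
  set a := R (TB (U + n) (Om m id)) with ha
  have hT : (1 : ℝ) ≤ ((t : ℝ) + 1) ^ p := Real.one_le_rpow (by linarith [Nat.cast_nonneg (α := ℝ) t]) hp0.le
  have h1 := H (((t : ℝ) + 1) ^ p * a / 2) (by have := h.mt.nonneg (TB (U + n) (Om m id)); positivity)
    fun g s τ h1 h2 h3 h4 h5 => by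
      obtain ⟨f, hf, hg⟩ := h5.merge h1 h4
      have h6 := h.sa hp0 h2 hc0 h3 hf U hB
      rw [hg, map_smul, h.mt.hom, ← ha] at h6
      simp only [abs_mul, abs_pow, abs_neg, abs_one, one_pow, mul_one, Nat.abs_cast] at h6
      push_cast at h6
      have h7 : (n : ℝ) / (U + n) * (n * c) ^ p ≤ θ ^ p / 2 := by
        rw [div_le_iff₀ (by positivity)] at hU
        rw [div_mul_eq_mul_div, div_le_iff₀ (by positivity)]
        have : 0 ≤ θ ^ p / 2 * n := by positivity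
        nlinarith
      have h8 : a ≤ ((t : ℝ) + 1) ^ p * a := le_mul_of_one_le_left (by linarith) hT
      linarith
  set A := R (Om (m + 2 * (t + 1) + 2 * (t + 1)) id)
  have hA : 0 ≤ A := h.mt.nonneg _
  have e : ((t : ℝ) + 1) ^ p = (t + 1) * ((t : ℝ) + 1) ^ (p - 1) := by
    rw [Real.rpow_sub_one (by positivity)]; field_simp
  rw [e] at h1
  have ha0 : 0 < a := by linarith
  have ht0 : (0 : ℝ) < t + 1 := by positivity
  have h2 : (t + 1) * (8 * (C + 1)) * a ≤ (t + 1) * ((t : ℝ) + 1) ^ (p - 1) * a :=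
    mul_le_mul_of_nonneg_right (mul_le_mul_of_nonneg_left ht ht0.le) ha0.le
  have h3 : ((t : ℝ) + 1) * (C + 1) * (2 * a) ≤ (t + 1) * (C + 1) * A := by
    have := mul_nonneg ht0.le hA
    have := mul_nonneg (mul_nonneg ht0.le (by linarith : 0 ≤ C + 1)) ha0.le
    nlinarith
  exact le_of_mul_le_mul_left h3 (by positivity)

theorem no_spread (hp : 1 < p) (hC : 0 ≤ C) (hθ : 0 < θ) (h : Spread p C θ R) : False := by
  have hp0 : 0 < p := by linarith
  obtain ⟨t, ht⟩ : ∃ t : ℕ, 8 * (C + 1) ≤ ((t : ℝ) + 1) ^ (p - 1) := by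
    have := ((tendsto_rpow_atTop (by linarith : 0 < p - 1)).comp
      (tendsto_atTop_add_const_right _ 1 tendsto_natCast_atTop_atTop)).eventually_ge_atTop
      (8 * (C + 1))
    exact this.exists
  have key : ∀ J : ℕ, ∀ R, Spread p C θ R → 2 ^ J * θ ^ p ≤ R (Om (1 + 4 * (t + 1) * J) id) := by
    intro J
    induction J with
    | zero => intro R h; simpa using h.low_Om (m := 1) one_pos
    | succ J ih =>
      intro R h
      obtain ⟨B, hB, h1⟩ := key_step h hp hC hθ ht (m := 1 + 4 * (t + 1) * J) (by omega)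
      have h2 := ih _ (h.tb hB)
      rw [show 1 + 4 * (t + 1) * (J + 1) = 1 + 4 * (t + 1) * J + 2 * (t + 1) + 2 * (t + 1) by ring,
        pow_succ]
      linarith
  have up : ∀ m : ℕ, R (Om m id) ≤ ((m + 1 : ℕ) * m) ^ p := fun m => by
    have := h.crude hp0 (Om_supp (m := m) (s := id) fun i hi => hi) (Nat.cast_nonneg m)
      (Om_abs m id) id
    rwa [Finsupp.mapDomain_id] at this
  obtain ⟨k, hk⟩ := exists_nat_ge p
  set L : ℝ := 4 * (t + 1) + 2 with hL
  have hθp : 0 < θ ^ p := by positivity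
  have h1 := (tendsto_pow_const_div_const_pow_of_one_lt (2 * k) (r := 2) (by norm_num)).eventually
    (gt_mem_nhds (show 0 < θ ^ p / L ^ (2 * k) by positivity))
  obtain ⟨J, hJ, hJ1⟩ := (h1.and (eventually_ge_atTop 1)).exists
  have hJr : (1 : ℝ) ≤ J := by exact_mod_cast hJ1
  have h2 := (key J R h).trans (up _)
  have ht0 : (0 : ℝ) ≤ t := Nat.cast_nonneg t
  have h3 : ((1 + 4 * (t + 1) * J + 1 : ℕ) : ℝ) * (1 + 4 * (t + 1) * J : ℕ) ≤ (L * J) ^ 2 := by
    rw [sq]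
    push_cast
    refine mul_le_mul ?_ ?_ (by positivity) (by positivity) <;> rw [hL] <;> nlinarith
  have h4 : (1 : ℝ) ≤ (L * J) ^ 2 := one_le_pow₀ (by rw [hL]; nlinarith)
  have h5 := h2.trans ((Real.rpow_le_rpow (by positivity) h3 hp0.le).trans
    (Real.rpow_le_rpow_of_exponent_le h4 hk))
  rw [Real.rpow_natCast, ← pow_mul, mul_pow] at h5
  rw [div_lt_div_iff₀ (by positivity) (by positivity)] at hJ
  linarith

theorem main {X : Type*} [NormedAddCommGroup X] [NormedSpace ℝ X] (hp : 1 < p)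
    (h : HasMarkovType X p) :
    (∃ N : Seminorm ℝ X, IsEquivNorm N ∧ IsUnifSmooth N) ∧
      ∃ N : Seminorm ℝ X, IsEquivNorm N ∧ IsUnifConvex N := by
  obtain ⟨C, hC, h⟩ := MT.norm hp.le h
  have hp0 : 0 < p := by linarith
  constructor
  · obtain ⟨M, h1, h2⟩ := exists_uc (Y := X →L[ℝ] ℝ) fun ε hε => ⟨_, chain_GS hp.le h hε, by
      by_contra hc
      obtain ⟨R, hR⟩ := exists_spread hp0 fun N => james_of_GS (X := X) (p := p) (C := C) hε
        (Set.nonempty_iff_ne_empty.mpr fun h' => hc ⟨N, h'⟩)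
      exact no_spread hp hC (by positivity) hR⟩
    exact us_of_dual_uc M h1 h2
  · obtain ⟨M, h1, h2⟩ := exists_uc (Y := X) fun ε hε => ⟨_, chain_GC hp.le h hε, by
      by_contra hc
      obtain ⟨R, hR⟩ := exists_spread hp0 fun N => james_of_GC (X := X) (C := C) (ε := ε) hp0
        (Set.nonempty_iff_ne_empty.mpr fun h' => hc ⟨N, h'⟩)
      exact no_spread hp hC (by positivity) hR⟩
    exact ⟨M, ⟨1, 2, one_pos, two_pos, fun x => by simpa using h1 x⟩, h2⟩

end Vale.Agent.P125
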