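import Vale.Agent.P125.Defs

namespace Vale.Agent.P125

open Filter Topology Finset

/-- Markov type inequality for a function `R` with constant `C`. -/
def MIneq {V : Type*} [AddCommGroup V] (C : ℝ) (R : V → ℝ) : Prop :=
  ∀ (S : Type) [Fintype S] [DecidableEq S] (π : S → ℝ) (P : Matrix S S ℝ),
    (∀ i, 0 ≤ π i) → ∑ i, π i = 1 → (∀ i j, 0 ≤ P i j) → (∀ i, ∑ j, P i j = 1) →
    (∀ i j, π i * P i j = π j * P j i) →
    ∀ (f : S → V) (t : ℕ), 1 ≤ t →
      ∑ i, ∑ j, π i * (P ^ t) i j * R (f j - f i) ≤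
        C * t * ∑ i, ∑ j, π i * P i j * R (f j - f i)

structure MT {V : Type*} [AddCommGroup V] [Module ℝ V] (p C : ℝ) (R : V → ℝ) : Prop where
  nonneg : ∀ x, 0 ≤ R x
  conv : ∀ (x y : V) (a b : ℝ), 0 ≤ a → 0 ≤ b → a + b = 1 → R (a • x + b • y) ≤ a * R x + b * R y
  hom : ∀ (c : ℝ) (x : V), R (c • x) = |c| ^ p * R x
  mk' : MIneq C R

variable {V W : Type*} [AddCommGroup V] [Module ℝ V] [AddCommGroup W] [Module ℝ W] {p C : ℝ}

theorem MT.comp {R : V → ℝ} (h : MT p C R) (L : W →ₗ[ℝ] V) : MT p C (fun x => R (L x)) where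
  nonneg x := h.nonneg _
  conv x y a b ha hb hab := by simpa using h.conv (L x) (L y) a b ha hb hab
  hom c x := by simpa using h.hom c (L x)
  mk' S _ _ π P h1 h2 h3 h4 h5 f t ht := by
    simpa using h.mk' S π P h1 h2 h3 h4 h5 (fun s => L (f s)) t ht

theorem MT.mix {R R' : V → ℝ} (h : MT p C R) (h' : MT p C R') {a b : ℝ} (ha : 0 ≤ a) (hb : 0 ≤ b) :
    MT p C (fun x => a * R x + b * R' x) where
  nonneg x := add_nonneg (mul_nonneg ha (h.nonneg _)) (mul_nonneg hb (h'.nonneg _))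
  conv x y c d hc hd hcd := by
    have h1 := mul_le_mul_of_nonneg_left (h.conv x y c d hc hd hcd) ha
    have h2 := mul_le_mul_of_nonneg_left (h'.conv x y c d hc hd hcd) hb
    nlinarith
  hom c x := by rw [h.hom, h'.hom]; ring
  mk' S _ _ π P h1 h2 h3 h4 h5 f t ht := by
    have e1 := mul_le_mul_of_nonneg_left (h.mk' S π P h1 h2 h3 h4 h5 f t ht) ha
    have e2 := mul_le_mul_of_nonneg_left (h'.mk' S π P h1 h2 h3 h4 h5 f t ht) hb
    have key : ∀ Q : Matrix S S ℝ, ∑ i, ∑ j, π i * Q i j * (a * R (f j - f i) + b * R' (f j - f i)) =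
        a * ∑ i, ∑ j, π i * Q i j * R (f j - f i) + b * ∑ i, ∑ j, π i * Q i j * R' (f j - f i) := by
      intro Q
      simp only [Finset.mul_sum, ← Finset.sum_add_distrib]
      refine Finset.sum_congr rfl fun i _ => Finset.sum_congr rfl fun j _ => by ring
    rw [key, key]
    nlinarith

theorem MT.convexOn {R : V → ℝ} (h : MT p C R) : ConvexOn ℝ Set.univ R :=
  ⟨convex_univ, fun x _ y _ a b ha hb hab => by simpa using h.conv x y a b ha hb hab⟩

theorem MT.neg {R : V → ℝ} (h : MT p C R) (x : V) : R (-x) = R x := by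
  have := h.hom (-1) x
  simpa using this

/-- Jensen for uniform averages. -/
theorem MT.avg {R : V → ℝ} (h : MT p C R) {ι : Type*} (s : Finset ι) (hs : s.Nonempty) (v : ι → V) :
    R ((s.card : ℝ)⁻¹ • ∑ i ∈ s, v i) ≤ (s.card : ℝ)⁻¹ * ∑ i ∈ s, R (v i) := by
  have hc : (0 : ℝ) < s.card := by exact_mod_cast hs.card_pos
  have := h.convexOn.map_sum_le (t := s) (w := fun _ => (s.card : ℝ)⁻¹) (p := v)
    (fun _ _ => by positivity) (by simp [hc.ne']) (fun _ _ => trivial)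
  rw [Finset.smul_sum, Finset.mul_sum]
  simpa using this

theorem MT.sum_le {R : V → ℝ} (h : MT p C R) (hp : 0 < p) {ι : Type*} (s : Finset ι) (v : ι → V)
    (a : ι → ℝ) (c : ℝ) (hc : 0 ≤ c) (hv : ∀ i ∈ s, R (v i) ≤ 1) (ha : ∀ i ∈ s, |a i| ≤ c) :
    R (∑ i ∈ s, a i • v i) ≤ (s.card * c) ^ p := by
  rcases s.eq_empty_or_nonempty with rfl | hs
  · have := h.hom 0 0
    simp [Real.zero_rpow hp.ne'] at this
    simp [this, Real.zero_rpow hp.ne']
  have hk : (0 : ℝ) < s.card := by exact_mod_cast hs.card_pos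
  have e : ∑ i ∈ s, a i • v i = (s.card : ℝ) • ((s.card : ℝ)⁻¹ • ∑ i ∈ s, a i • v i) := by
    rw [smul_smul, mul_inv_cancel₀ hk.ne', one_smul]
  rw [e, h.hom, abs_of_pos hk, Real.mul_rpow hk.le hc]
  refine mul_le_mul_of_nonneg_left ((h.avg s hs _).trans ?_) (by positivity)
  have : ∑ i ∈ s, R (a i • v i) ≤ ∑ _i ∈ s, c ^ p := by
    refine Finset.sum_le_sum fun i hi => ?_
    rw [h.hom]
    calc |a i| ^ p * R (v i) ≤ c ^ p * 1 :=
          mul_le_mul (Real.rpow_le_rpow (abs_nonneg _) (ha i hi) hp.le) (hv i hi) (h.nonneg _)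
            (by positivity)
      _ = c ^ p := mul_one _
  rw [Finset.sum_const, nsmul_eq_mul] at this
  calc (s.card : ℝ)⁻¹ * ∑ i ∈ s, R (a i • v i) ≤ (s.card : ℝ)⁻¹ * (s.card * c ^ p) :=
        mul_le_mul_of_nonneg_left this (by positivity)
    _ = c ^ p := by field_simp

theorem exists_tendsto_ultra {ι : Type*} (U : Ultrafilter ι) (g : ι → ℝ) (B : ℝ)
    (h : ∀ i, |g i| ≤ B) : ∃ l, Tendsto g U (𝓝 l) := by
  obtain ⟨l, -, hl⟩ := (isCompact_Icc (a := -B) (b := B)).ultrafilter_le_nhds (U.map g) (by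
    rw [le_principal_iff, Ultrafilter.mem_coe, Ultrafilter.mem_map]
    exact Filter.univ_mem' fun i => abs_le.mp (h i))
  exact ⟨l, hl⟩

theorem MT.ultra {ι : Type*} (U : Ultrafilter ι) (R : ι → V → ℝ) (h : ∀ i, MT p C (R i))
    (hb : ∀ x, ∃ B, ∀ i, R i x ≤ B) :
    ∃ Q : V → ℝ, MT p C Q ∧ ∀ x, Tendsto (fun i => R i x) U (𝓝 (Q x)) := by
  have : ∀ x, ∃ l, Tendsto (fun i => R i x) U (𝓝 l) := fun x => by
    obtain ⟨B, hB⟩ := hb x
    exact exists_tendsto_ultra U _ B fun i => by rw [abs_of_nonneg ((h i).nonneg x)]; exact hB i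
  choose Q hQ using this
  refine ⟨Q, ⟨fun x => ge_of_tendsto' (hQ x) fun i => (h i).nonneg x, ?_, ?_, ?_⟩, hQ⟩
  · intro x y a b ha hb hab
    exact le_of_tendsto_of_tendsto' (hQ _) (((hQ x).const_mul a).add ((hQ y).const_mul b))
      fun i => (h i).conv x y a b ha hb hab
  · intro c x
    refine tendsto_nhds_unique (hQ _) (((hQ x).const_mul (|c| ^ p)).congr fun i => ?_)
    rw [(h i).hom]
  · intro S _ _ π P h1 h2 h3 h4 h5 f t ht
    refine le_of_tendsto_of_tendsto' (b := (U : Filter ι))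
      (tendsto_finsetSum _ fun i _ => tendsto_finsetSum _ fun j _ => (hQ _).const_mul _)
      (Tendsto.const_mul _
        (tendsto_finsetSum _ fun i _ => tendsto_finsetSum _ fun j _ => (hQ _).const_mul _))
      fun i => (h i).mk' S π P h1 h2 h3 h4 h5 f t ht

theorem rpow_conv (hp : 1 ≤ p) {x y a b : ℝ} (hx : 0 ≤ x) (hy : 0 ≤ y) (ha : 0 ≤ a) (hb : 0 ≤ b)
    (hab : a + b = 1) : (a * x + b * y) ^ p ≤ a * x ^ p + b * y ^ p := by
  simpa using (convexOn_rpow hp).2 (Set.mem_Ici.mpr hx) (Set.mem_Ici.mpr hy) ha hb hab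

theorem norm_rpow_conv {X : Type*} [NormedAddCommGroup X] [NormedSpace ℝ X] (hp : 1 ≤ p) (x y : X)
    {a b : ℝ} (ha : 0 ≤ a) (hb : 0 ≤ b) (hab : a + b = 1) :
    ‖a • x + b • y‖ ^ p ≤ a * ‖x‖ ^ p + b * ‖y‖ ^ p := by
  refine le_trans (Real.rpow_le_rpow (norm_nonneg _) ?_ (by linarith))
    (rpow_conv hp (norm_nonneg x) (norm_nonneg y) ha hb hab)
  refine (norm_add_le _ _).trans ?_
  rw [norm_smul, norm_smul, Real.norm_of_nonneg ha, Real.norm_of_nonneg hb]

theorem MT.norm {X : Type*} [NormedAddCommGroup X] [NormedSpace ℝ X] (hp : 1 ≤ p)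
    (h : HasMarkovType X p) : ∃ C, 0 ≤ C ∧ MT p C (fun x : X => ‖x‖ ^ p) := by
  obtain ⟨K, hK, h⟩ := h
  refine ⟨K ^ p, by positivity, fun x => by positivity, fun x y a b ha hb hab =>
    norm_rpow_conv hp x y ha hb hab, fun c x => ?_, h⟩
  rw [norm_smul, Real.mul_rpow (norm_nonneg _) (norm_nonneg _), Real.norm_eq_abs]

end Vale.Agent.P125
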