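import Vale.Agent.P125.MT

namespace Vale.Agent.P125

open Filter Topology Finset Metric

variable {Y : Type*} [NormedAddCommGroup Y] [NormedSpace ℝ Y]

theorem infDist_conv {s : Set Y} (hs : Convex ℝ s) (hne : s.Nonempty) (x y : Y) {a b : ℝ}
    (ha : 0 ≤ a) (hb : 0 ≤ b) (hab : a + b = 1) :
    infDist (a • x + b • y) s ≤ a * infDist x s + b * infDist y s := by
  refine le_of_forall_pos_le_add fun e he => ?_
  obtain ⟨x', hx', h1⟩ := (infDist_lt_iff hne).mp (lt_add_of_pos_right (infDist x s) he)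
  obtain ⟨y', hy', h2⟩ := (infDist_lt_iff hne).mp (lt_add_of_pos_right (infDist y s) he)
  refine (infDist_le_dist_of_mem (hs hx' hy' ha hb hab)).trans ?_
  rw [dist_eq_norm] at *
  have e1 : a • x + b • y - (a • x' + b • y') = a • (x - x') + b • (y - y') := by
    rw [smul_sub, smul_sub]; abel
  rw [e1]
  refine (norm_add_le _ _).trans ?_
  rw [norm_smul, norm_smul, Real.norm_of_nonneg ha, Real.norm_of_nonneg hb]
  have h3 := mul_le_mul_of_nonneg_left h1.le ha
  have h4 := mul_le_mul_of_nonneg_left h2.le hb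
  have : e = a * e + b * e := by rw [← add_mul, hab, one_mul]
  nlinarith

structure Nice (h : Y → ℝ) : Prop where
  conv : ∀ (x y : Y) (a b : ℝ), 0 ≤ a → 0 ≤ b → a + b = 1 → h (a • x + b • y) ≤ a * h x + b * h y
  even : ∀ x, h (-x) = h x
  nonneg : ∀ x, 0 ≤ h x
  le_norm : ∀ x, h x ≤ ‖x‖
  lip : ∀ x y, h x ≤ h y + ‖x - y‖

theorem nice_infDist {s : Set Y} (hs : Convex ℝ s) (hne : s.Nonempty) (hsym : ∀ x ∈ s, -x ∈ s) :
    Nice (fun x => infDist x s) := by
  have h0 : (0 : Y) ∈ s := by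
    obtain ⟨x, hx⟩ := hne
    have := hs hx (hsym x hx) (a := 1 / 2) (b := 1 / 2) (by norm_num) (by norm_num) (by norm_num)
    simpa using this
  have hle : ∀ x, infDist (-x) s ≤ infDist x s := fun x => by
    refine le_of_forall_pos_le_add fun e he => ?_
    obtain ⟨x', hx', h1⟩ := (infDist_lt_iff hne).mp (lt_add_of_pos_right (infDist x s) he)
    refine (infDist_le_dist_of_mem (hsym _ hx')).trans ?_
    rw [dist_neg_neg]; exact h1.le
  refine ⟨fun x y a b ha hb hab => infDist_conv hs hne x y ha hb hab, fun x => ?_,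
    fun x => infDist_nonneg, fun x => ?_, fun x y => ?_⟩
  · exact le_antisymm (hle x) (by simpa using hle (-x))
  · simpa using infDist_le_dist_of_mem (x := x) h0
  · simpa [dist_eq_norm] using infDist_le_infDist_add_dist (x := x) (y := y) (s := s)

/-- A derivation chain at scale `ε`. -/
structure Chain (ε : ℝ) (C : ℕ → Set Y) : Prop where
  conv : ∀ n, Convex ℝ (C n)
  sym : ∀ n, ∀ x ∈ C n, -x ∈ C n
  zero : ∀ x, ‖x‖ ≤ 1 → x ∈ C 0
  mid : ∀ n, ∀ x ∈ C n, ∀ y ∈ C n, ε ≤ ‖x - y‖ → (1 / 2 : ℝ) • (x + y) ∈ C (n + 1)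

theorem Chain.key {ε : ℝ} {C : ℕ → Set Y} (hC : Chain ε C) {n : ℕ} (hne : (C n).Nonempty)
    {x y : Y} (hxy : 2 * ε ≤ ‖x - y‖) (hs : (infDist x (C n) + infDist y (C n)) / 2 ≤ ε / 4)
    {e : ℝ} (he : 0 < e) (he' : e ≤ ε / 4) :
    ∃ z ∈ C (n + 1), dist ((1 / 2 : ℝ) • (x + y)) z ≤ (infDist x (C n) + infDist y (C n)) / 2 + e := by
  obtain ⟨x', hx', h1⟩ := (infDist_lt_iff hne).mp (lt_add_of_pos_right (infDist x (C n)) he)
  obtain ⟨y', hy', h2⟩ := (infDist_lt_iff hne).mp (lt_add_of_pos_right (infDist y (C n)) he)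
  rw [dist_eq_norm] at h1 h2
  refine ⟨_, hC.mid n x' hx' y' hy' ?_, ?_⟩
  · have : ‖x - y‖ ≤ ‖x - x'‖ + ‖x' - y'‖ + ‖y - y'‖ := by
      have e1 : x - y = (x - x') + (x' - y') - (y - y') := by abel
      rw [e1]
      exact (norm_sub_le _ _).trans (add_le_add (norm_add_le _ _) le_rfl) |>.trans (by simp)
    linarith
  · rw [dist_eq_norm, ← smul_sub, norm_smul]
    have e1 : x + y - (x' + y') = (x - x') + (y - y') := by abel
    rw [e1]
    have := norm_add_le (x - x') (y - y')
    norm_num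
    linarith

theorem Chain.gain {ε : ℝ} (hε : 0 < ε) {C : ℕ → Set Y} (hC : Chain ε C) (hN : ∃ N, C N = ∅) :
    ∃ h : Y → ℝ, ∃ γ : ℝ, 0 < γ ∧ Nice h ∧ ∀ x y, ‖x‖ ≤ 1 → ‖y‖ ≤ 1 → 2 * ε ≤ ‖x - y‖ →
      h ((1 / 2 : ℝ) • (x + y)) ≤ (h x + h y) / 2 - γ := by
  classical
  set N := Nat.find hN with hNdef
  have hNe : C N = ∅ := Nat.find_spec hN
  have hne : ∀ n < N, (C n).Nonempty := fun n hn =>
    Set.nonempty_iff_ne_empty.mpr (Nat.find_min hN hn)
  have hN0 : 0 < N := by
    rcases Nat.eq_zero_or_pos N with h | h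
    · have := hC.zero 0 (by simp)
      rw [← h, hNe] at this
      exact absurd this (Set.notMem_empty _)
    · exact h
  clear_value N
  have hNr : (0 : ℝ) < N := by exact_mod_cast hN0
  have hn : ∀ n < N, Nice (fun x => infDist x (C n)) := fun n h =>
    nice_infDist (hC.conv n) (hne n h) (hC.sym n)
  have hc : ∀ c : ℝ, (N : ℝ)⁻¹ * ∑ _n ∈ range N, c = c := fun c => by
    rw [Finset.sum_const, card_range, nsmul_eq_mul]; field_simp
  have hi : (0 : ℝ) ≤ (N : ℝ)⁻¹ := by positivity
  refine ⟨fun x => (N : ℝ)⁻¹ * ∑ n ∈ range N, infDist x (C n), (N : ℝ)⁻¹ * (ε / (4 * N)),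
    by positivity, ⟨?_, ?_, ?_, ?_, ?_⟩, ?_⟩
  · intro x y a b ha hb hab
    have : ∑ n ∈ range N, infDist (a • x + b • y) (C n) ≤
        a * ∑ n ∈ range N, infDist x (C n) + b * ∑ n ∈ range N, infDist y (C n) := by
      rw [Finset.mul_sum, Finset.mul_sum, ← Finset.sum_add_distrib]
      exact Finset.sum_le_sum fun n h => (hn n (mem_range.mp h)).conv x y a b ha hb hab
    have := mul_le_mul_of_nonneg_left this hi
    linarith
  · intro x
    congr 1
    exact Finset.sum_congr rfl fun n h => (hn n (mem_range.mp h)).even x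
  · intro x
    exact mul_nonneg hi (Finset.sum_nonneg fun n _ => infDist_nonneg)
  · intro x
    rw [← hc ‖x‖]
    exact mul_le_mul_of_nonneg_left
      (Finset.sum_le_sum fun n h => (hn n (mem_range.mp h)).le_norm x) hi
  · intro x y
    rw [← hc ‖x - y‖, ← mul_add, ← Finset.sum_add_distrib]
    exact mul_le_mul_of_nonneg_left
      (Finset.sum_le_sum fun n h => (hn n (mem_range.mp h)).lip x y) hi
  · intro x y hx hy hxy
    set g := ε / (4 * N) with hg
    have hg0 : 0 < g := by positivity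
    have hgN : N * g = ε / 4 := by rw [hg]; field_simp
    clear_value g
    set s : ℕ → ℝ := fun n => (infDist x (C n) + infDist y (C n)) / 2 with hs
    have hex : ∃ n < N, infDist ((1 / 2 : ℝ) • (x + y)) (C n) ≤ s n - g := by
      by_contra hcon
      push Not at hcon
      have hind : ∀ n < N, s n ≤ n * g := by
        intro n
        induction n with
        | zero =>
          intro _
          simp [hs, infDist_zero_of_mem (hC.zero x hx), infDist_zero_of_mem (hC.zero y hy)]
        | succ n ih =>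
          intro h
          have h1 := ih (by omega)
          have h2 : s n ≤ ε / 4 := by
            have : (n : ℝ) ≤ N := by exact_mod_cast (by omega : n ≤ N)
            nlinarith
          have h3 : infDist ((1 / 2 : ℝ) • (x + y)) (C (n + 1)) ≤ s n := by
            refine le_of_forall_pos_le_add fun e he => ?_
            obtain ⟨z, hz, hd⟩ := hC.key (hne n (by omega)) hxy h2 (lt_min he (by positivity))
              (min_le_right e (ε / 4))
            have := min_le_left e (ε / 4)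
            have := infDist_le_dist_of_mem (x := (1 / 2 : ℝ) • (x + y)) hz
            simp only [hs]
            linarith
          have := hcon (n + 1) h
          push_cast
          linarith
      obtain ⟨M, rfl⟩ : ∃ M, N = M + 1 := ⟨N - 1, by omega⟩
      have h1 := hind M (by omega)
      have h2 : s M ≤ ε / 4 := by
        push_cast at hgN
        nlinarith
      obtain ⟨z, hz, -⟩ := hC.key (hne M (by omega)) hxy h2 (by positivity : 0 < ε / 4) le_rfl
      rw [hNe] at hz
      exact hz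
    obtain ⟨n0, hn0, hle⟩ := hex
    have hall : ∀ n ∈ range N, infDist ((1 / 2 : ℝ) • (x + y)) (C n) ≤
        s n - if n = n0 then g else 0 := by
      intro n h
      split_ifs with h'
      · rw [h']; exact hle
      · have := (hn n (mem_range.mp h)).conv x y (1 / 2) (1 / 2) (by norm_num) (by norm_num)
          (by norm_num)
        rw [← smul_add] at this
        simp only [hs]
        linarith
    have h1 := Finset.sum_le_sum hall
    rw [Finset.sum_sub_distrib, Finset.sum_ite_eq' , if_pos (mem_range.mpr hn0)] at h1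
    have h2 : ∑ n ∈ range N, s n =
        (∑ n ∈ range N, infDist x (C n) + ∑ n ∈ range N, infDist y (C n)) / 2 := by
      rw [← Finset.sum_add_distrib, Finset.sum_div]
    rw [h2] at h1
    have := mul_le_mul_of_nonneg_left h1 hi
    linarith

theorem exists_f (H : ∀ ε : ℝ, 0 < ε → ∃ C : ℕ → Set Y, Chain ε C ∧ ∃ N, C N = ∅) :
    ∃ g : Y → ℝ, Nice g ∧ ∀ ε : ℝ, 0 < ε → ∃ γ : ℝ, 0 < γ ∧ ∀ x y, ‖x‖ ≤ 1 → ‖y‖ ≤ 1 →
      ε ≤ ‖x - y‖ → g ((1 / 2 : ℝ) • (x + y)) ≤ (g x + g y) / 2 - γ := by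
  have : ∀ k : ℕ, ∃ h : Y → ℝ, ∃ γ : ℝ, 0 < γ ∧ Nice h ∧ ∀ x y, ‖x‖ ≤ 1 → ‖y‖ ≤ 1 →
      2 * (1 / ((k : ℝ) + 1)) ≤ ‖x - y‖ → h ((1 / 2 : ℝ) • (x + y)) ≤ (h x + h y) / 2 - γ := by
    intro k
    obtain ⟨C, hC, hN⟩ := H (1 / ((k : ℝ) + 1)) (by positivity)
    exact hC.gain (by positivity) hN
  choose h γ hγ hn hg using this
  set w : ℕ → ℝ := fun k => (1 / 2 : ℝ) / 2 ^ k with hw
  have hw0 : ∀ k, 0 < w k := fun k => by positivity
  have hws : HasSum w 1 := by simpa [hw] using hasSum_geometric_two' 1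
  clear_value w
  have hsum : ∀ x, Summable fun k => w k * h k x := fun x =>
    Summable.of_nonneg_of_le (fun k => mul_nonneg (hw0 k).le ((hn k).nonneg x))
      (fun k => mul_le_mul_of_nonneg_left ((hn k).le_norm x) (hw0 k).le)
      (hws.summable.mul_right _)
  have hS : ∀ x, HasSum (fun k => w k * h k x) (∑' k, w k * h k x) := fun x => (hsum x).hasSum
  refine ⟨fun x => ∑' k, w k * h k x, ⟨?_, ?_, ?_, ?_, ?_⟩, ?_⟩
  · intro x y a b ha hb hab
    refine hasSum_le (fun k => ?_) (hS _) (((hS x).mul_left a).add ((hS y).mul_left b))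
    have := mul_le_mul_of_nonneg_left ((hn k).conv x y a b ha hb hab) (hw0 k).le
    linarith
  · intro x
    simp only [fun k => (hn k).even x]
  · intro x
    exact tsum_nonneg fun k => mul_nonneg (hw0 k).le ((hn k).nonneg x)
  · intro x
    have := hasSum_le (fun k => mul_le_mul_of_nonneg_left ((hn k).le_norm x) (hw0 k).le) (hS x)
      (hws.mul_right ‖x‖)
    simpa using this
  · intro x y
    have := hasSum_le (fun k => by
      have := mul_le_mul_of_nonneg_left ((hn k).lip x y) (hw0 k).le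
      show w k * h k x ≤ w k * h k y + w k * ‖x - y‖
      linarith) (hS x) ((hS y).add (hws.mul_right ‖x - y‖))
    simpa using this
  · intro ε hε
    obtain ⟨k0, hk0⟩ := exists_nat_one_div_lt (half_pos hε)
    refine ⟨w k0 * γ k0, mul_pos (hw0 _) (hγ _), fun x y hx hy hxy => ?_⟩
    have h1 := (((hS x).add (hS y)).div_const 2).sub (hasSum_ite_eq k0 (w k0 * γ k0))
    refine hasSum_le (fun k => ?_) (hS _) h1
    split_ifs with hk
    · subst hk
      have := mul_le_mul_of_nonneg_left (hg k x y hx hy (by linarith)) (hw0 k).le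
      linarith
    · have := (hn k).conv x y (1 / 2) (1 / 2) (by norm_num) (by norm_num) (by norm_num)
      rw [← smul_add] at this
      have := mul_le_mul_of_nonneg_left this (hw0 k).le
      linarith

/-- Enflo-type renorming, in Lancien's form. -/
theorem exists_uc (H : ∀ ε : ℝ, 0 < ε → ∃ C : ℕ → Set Y, Chain ε C ∧ ∃ N, C N = ∅) :
    ∃ N : Seminorm ℝ Y, (∀ x, ‖x‖ ≤ N x ∧ N x ≤ 2 * ‖x‖) ∧ IsUnifConvex N := by
  obtain ⟨g, hg, hgain⟩ := exists_f H
  set A : Set Y := {x | ‖x‖ + g x ≤ 1} with hA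
  have hconv : Convex ℝ A := by
    intro x hx y hy a b ha hb hab
    simp only [hA, Set.mem_ofPred_eq] at *
    have h1 := hg.conv x y a b ha hb hab
    have h2 := norm_add_le (a • x) (b • y)
    rw [norm_smul, norm_smul, Real.norm_of_nonneg ha, Real.norm_of_nonneg hb] at h2
    have h3 := mul_le_mul_of_nonneg_left hx ha
    have h4 := mul_le_mul_of_nonneg_left hy hb
    nlinarith
  have hsub : closedBall (0 : Y) (1 / 2) ⊆ A := fun x hx => by
    simp only [hA, Set.mem_ofPred_eq, mem_closedBall, dist_zero_right] at *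
    linarith [hg.le_norm x]
  have hsup : A ⊆ closedBall (0 : Y) 1 := fun x hx => by
    simp only [hA, Set.mem_ofPred_eq, mem_closedBall, dist_zero_right] at *
    linarith [hg.nonneg x]
  have hab0 : Absorbent ℝ (closedBall (0 : Y) (1 / 2)) :=
    absorbent_nhds_zero (closedBall_mem_nhds _ (by norm_num))
  have habs : Absorbent ℝ A := hab0.mono hsub
  have hbal : Balanced ℝ A := by
    rw [balanced_iff_neg_mem hconv]
    intro x hx
    simp only [hA, Set.mem_ofPred_eq] at *
    rwa [norm_neg, hg.even]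
  have hcl : IsClosed A := by
    refine isClosed_le (continuous_norm.add ?_) continuous_const
    refine (LipschitzWith.of_dist_le_mul (K := 1) fun x y => ?_).continuous
    rw [Real.dist_eq, dist_eq_norm, abs_le]
    have h1 := hg.lip x y
    have h2 := hg.lip y x
    rw [norm_sub_rev] at h2
    constructor <;> simp <;> linarith
  have hmem : ∀ x, gauge A x ≤ 1 → x ∈ A := fun x hx => by
    have := mem_closure_of_gauge_le_one hconv (hsub (by simp)) habs hx
    rwa [hcl.closure_eq] at this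
  have hb : ∀ x, ‖x‖ ≤ gauge A x ∧ gauge A x ≤ 2 * ‖x‖ := fun x => by
    have h1 := gauge_mono habs hsup x
    have h2 := gauge_mono hab0 hsub x
    rw [gauge_closedBall (by norm_num)] at h1 h2
    constructor <;> linarith
  refine ⟨gaugeSeminorm hbal hconv habs, hb, fun ε hε _ => ?_⟩
  obtain ⟨γ, hγ, h⟩ := hgain (ε / 2) (half_pos hε)
  refine ⟨1 - (1 + γ / 2)⁻¹, ?_, fun x y hx hy hxy => ?_⟩
  · have : (1 + γ / 2)⁻¹ < 1 := inv_lt_one_of_one_lt₀ (by linarith)
    linarith
  simp only [gaugeSeminorm_toFun] at hx hy hxy ⊢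
  have hx' := hmem x hx
  have hy' := hmem y hy
  have hx1 : ‖x‖ ≤ 1 := by simpa using hsup hx'
  have hy1 : ‖y‖ ≤ 1 := by simpa using hsup hy'
  have h1 := h x y hx1 hy1 (by linarith [(hb (x - y)).2])
  set m := (1 / 2 : ℝ) • (x + y) with hm
  have hm1 : ‖m‖ ≤ (‖x‖ + ‖y‖) / 2 := by
    rw [hm, norm_smul]
    have := norm_add_le x y
    norm_num
    linarith
  clear_value m
  simp only [hA, Set.mem_ofPred_eq] at hx' hy'
  have hin : (1 + γ / 2) • m ∈ A := by
    simp only [hA, Set.mem_ofPred_eq]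
    have h2 := hg.lip ((1 + γ / 2) • m) m
    have e : (1 + γ / 2) • m - m = (γ / 2) • m := by rw [add_smul, one_smul]; abel
    rw [e, norm_smul, Real.norm_of_nonneg (by positivity)] at h2
    rw [norm_smul, Real.norm_of_nonneg (by positivity)]
    have : γ * ‖m‖ ≤ γ * 1 := mul_le_mul_of_nonneg_left (by linarith) hγ.le
    nlinarith
  have := gauge_le_of_mem (s := A) (a := (1 + γ / 2)⁻¹) (x := m) (by positivity)
    ⟨_, hin, by simp only; rw [smul_smul, inv_mul_cancel₀ (by positivity), one_smul]⟩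
  linarith

end Vale.Agent.P125
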