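import Vale.Agent.P125.James

namespace Vale.Agent.P125

open Filter Topology Finset

def cons (a : ℕ) (z : ℕ → ℕ) : ℕ → ℕ
  | 0 => a
  | i + 1 => z i

noncomputable def UU : ℕ → Ultrafilter (ℕ → ℕ)
  | 0 => pure (fun _ => 0)
  | n + 1 => (hyperfilter ℕ).bind fun a => (UU n).map (cons a)

def trunc (m : ℕ) (z : ℕ → ℕ) : ℕ → ℕ := fun i => if i < m then z i else 0

def SM (m : ℕ) (z : ℕ → ℕ) : Prop := ∀ i j, i < j → j < m → z i < z j

theorem mem_ubind {α β : Type*} (f : Ultrafilter α) (m : α → Ultrafilter β) (s : Set β) :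
    s ∈ f.bind m ↔ {a | s ∈ m a} ∈ f := Iff.rfl

theorem map_ubind {α β γ : Type*} (f : Ultrafilter α) (m : α → Ultrafilter β) (g : β → γ) :
    (f.bind m).map g = f.bind fun a => (m a).map g := by
  ext s; rfl

theorem ubind_ev {α β : Type*} (f : Ultrafilter α) (m : α → Ultrafilter β) (u : Ultrafilter β)
    (h : ∀ᶠ a in (f : Filter α), m a = u) : f.bind m = u := by
  ext s
  rw [mem_ubind]
  constructor
  · intro hs
    obtain ⟨a, ha, ha'⟩ := (Filter.Eventually.and (show ∀ᶠ a in (f : Filter α), s ∈ m a from hs)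
      h).exists
    rwa [ha'] at ha
  · intro hs
    exact h.mono fun a ha => by rw [ha]; exact hs

theorem UU_map : ∀ (n : ℕ) (ι : ℕ → ℕ) (m : ℕ), SM m ι → (∀ i < m, ι i < n) →
    (UU n).map (fun z => trunc m (z ∘ ι)) = UU m := by
  intro n
  induction n with
  | zero =>
    intro ι m _ h
    obtain rfl : m = 0 := by
      by_contra h0
      exact absurd (h 0 (by omega)) (by omega)
    simp only [UU, Ultrafilter.map_pure]
    congr 1
  | succ n ih =>
    intro ι m hs h
    cases m with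
    | zero =>
      ext s
      rw [Ultrafilter.mem_map]
      have e : (fun z : ℕ → ℕ => trunc 0 (z ∘ ι)) = fun _ _ => 0 := by
        ext z i; simp [trunc]
      rw [e]
      simp only [UU, Ultrafilter.mem_pure]
      by_cases hs : (fun _ => 0) ∈ s
      · simp only [hs, iff_true]
        exact Filter.univ_mem' fun _ => hs
      · simp only [hs, iff_false]
        have : (fun _ _ => 0 : (ℕ → ℕ) → ℕ → ℕ) ⁻¹' s = ∅ := by ext; simp [hs]
        rw [this]
        exact Ultrafilter.empty_notMem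
    | succ m =>
      rw [UU, map_ubind]
      by_cases h0 : ι 0 = 0
      · rw [UU]
        congr 1
        ext1 a
        have hpos : ∀ i < m, 0 < ι (i + 1) := fun i hi => by
          have := hs 0 (i + 1) (by omega) (by omega); omega
        rw [← ih (fun i => ι (i + 1) - 1) m (fun i j hij hj => by
          have := hs (i + 1) (j + 1) (by omega) (by omega)
          have := hpos i (by omega)
          simp only; omega) (fun i hi => by
          have := h (i + 1) (by omega)
          have := hpos i hi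
          omega), Ultrafilter.map_map, Ultrafilter.map_map]
        congr 1
        ext z i
        cases i with
        | zero => simp [trunc, cons, h0]
        | succ i =>
          simp only [Function.comp, trunc, cons, Nat.add_lt_add_iff_right]
          split_ifs with hi
          · obtain ⟨k, hk⟩ : ∃ k, ι (i + 1) = k + 1 := ⟨ι (i + 1) - 1, by have := hpos i hi; omega⟩
            simp [hk, cons]
          · rfl
      · have hpos : ∀ i < m + 1, 0 < ι i := fun i hi => by
          rcases Nat.eq_zero_or_pos i with rfl | hi0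
          · omega
          · have := hs 0 i hi0 hi; omega
        refine ubind_ev _ _ _ (Eventually.of_forall fun a => ?_)
        rw [← ih (fun i => ι i - 1) (m + 1) (fun i j hij hj => by
          have := hs i j hij hj
          have := hpos i (by omega)
          simp only; omega) (fun i hi => by
          have := h i hi
          have := hpos i hi
          omega), Ultrafilter.map_map]
        congr 1
        ext z i
        simp only [Function.comp, trunc]
        split_ifs with hi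
        · obtain ⟨k, hk⟩ : ∃ k, ι i = k + 1 := ⟨ι i - 1, by have := hpos i hi; omega⟩
          simp [hk, cons]
        · rfl

theorem UU_sm : ∀ (n b : ℕ), ∀ᶠ z in (UU n : Filter (ℕ → ℕ)), (∀ i < n, b < z i) ∧ SM n z := by
  intro n
  induction n with
  | zero => intro b; exact Eventually.of_forall fun z => ⟨by omega, fun i j _ h => by omega⟩
  | succ n ih =>
    intro b
    have h1 : ∀ᶠ a in (hyperfilter ℕ : Filter ℕ), b < a :=
      (eventually_gt_atTop b).filter_mono Nat.hyperfilter_le_atTop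
    refine h1.mono fun a ha => ?_
    refine (ih a).mono fun z hz => ⟨fun i hi => ?_, fun i j hij hj => ?_⟩
    · cases i with
      | zero => exact ha
      | succ i => exact ha.trans (hz.1 i (by omega))
    · obtain ⟨j, rfl⟩ : ∃ k, j = k + 1 := ⟨j - 1, by omega⟩
      cases i with
      | zero => exact hz.1 j (by omega)
      | succ i => exact hz.2 i j (by omega) (by omega)

noncomputable def UW : Ultrafilter (ℕ → ℕ) := (hyperfilter ℕ).bind UU

theorem UW_map (ι : ℕ → ℕ) (m : ℕ) (hs : SM m ι) :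
    UW.map (fun z => trunc m (z ∘ ι)) = UU m := by
  rw [UW, map_ubind]
  refine ubind_ev _ _ _ ?_
  have h1 : ∀ᶠ a in (hyperfilter ℕ : Filter ℕ), (range m).sup ι < a :=
    (eventually_gt_atTop _).filter_mono Nat.hyperfilter_le_atTop
  exact h1.mono fun n hn => UU_map n ι m hs fun i hi =>
    lt_of_le_of_lt (Finset.le_sup (mem_range.mpr hi)) hn

theorem UW_sm (m : ℕ) : ∀ᶠ z in (UW : Filter (ℕ → ℕ)), SM m z := by
  have h1 : ∀ᶠ a in (hyperfilter ℕ : Filter ℕ), m ≤ a :=
    (eventually_ge_atTop _).filter_mono Nat.hyperfilter_le_atTop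
  exact h1.mono fun n hn => (UU_sm n 0).mono fun z hz i j hij hj => hz.2 i j hij (by omega)

theorem UW_tendsto {F : (ℕ → ℕ) → ℝ} {m : ℕ} {l : ℝ} (h : Tendsto F (UU m) (𝓝 l)) (ι : ℕ → ℕ)
    (hs : SM m ι) : Tendsto (fun z => F (trunc m (z ∘ ι))) UW (𝓝 l) := by
  rw [← UW_map ι m hs] at h
  exact h

/-- Finitely supported laws on increasing sequences that are almost spreadable in total
variation. -/
theorem exists_tv {ρ : Type} [Fintype ρ] (c : ρ → ℝ) (hc : ∑ r, c r = 0) (φ : ρ → ℕ → ℕ) (m L : ℕ)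
    (hφ : ∀ r, SM m (φ r)) {η : ℝ} (hη : 0 < η) :
    ∃ (ι : Type) (_ : Fintype ι) (w : ι → ℝ) (z : ι → ℕ → ℕ), (∀ v, 0 ≤ w v) ∧ ∑ v, w v = 1 ∧
      (∀ v, SM L (z v)) ∧ ∀ T : Finset (ℕ → ℕ), ∑ s ∈ T,
        |∑ v, ∑ r, w v * c r * (open Classical in if trunc m (z v ∘ φ r) = s then 1 else 0)| ≤ η := by
  classical
  set E := lp (fun _ : ℕ → ℕ => ℝ) 1
  set e : (ℕ → ℕ) → E := fun s => lp.single 1 s (1 : ℝ) with he
  set vec : (ℕ → ℕ) → E := fun z => ∑ r, c r • e (trunc m (z ∘ φ r)) with hvec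
  have hnd : ¬ Disjoint (Metric.ball (0 : E) η) (convexHull ℝ (vec '' {z | SM L z})) := by
    intro hd
    obtain ⟨f, u, h1, h2⟩ := geometric_hahn_banach_open (convex_ball 0 η) Metric.isOpen_ball
      (convex_convexHull ℝ _) hd
    have hu : 0 < u := by simpa using h1 0 (by simpa using hη)
    obtain ⟨l, hl⟩ := exists_tendsto_ultra (UU m) (fun s => f (e s)) ‖f‖ fun s => by
      refine (f.le_opNorm _).trans ?_
      rw [he]
      simp only
      rw [lp.norm_single (by norm_num)]
      simp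
    have h3 : Tendsto (fun z => f (vec z)) UW (𝓝 (∑ r, c r * l)) := by
      simp only [hvec, map_sum, map_smul, smul_eq_mul]
      exact tendsto_finsetSum _ fun r _ => (UW_tendsto hl (φ r) (hφ r)).const_mul _
    rw [← Finset.sum_mul, hc, zero_mul] at h3
    have h4 : u ≤ 0 := ge_of_tendsto h3 ((UW_sm L).mono fun z hz =>
      h2 _ (subset_convexHull ℝ _ ⟨z, hz, rfl⟩))
    linarith
  obtain ⟨x, hx, hx'⟩ := Set.not_disjoint_iff.mp hnd
  obtain ⟨ι, hι, w, y, hw0, hw1, hy, hsum⟩ := mem_convexHull_iff_exists_fintype.mp hx'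
  choose z hz hzy using hy
  refine ⟨ι, hι, w, z, hw0, hw1, hz, fun T => ?_⟩
  have h1 := lp.sum_rpow_le_norm_rpow (p := 1) (by norm_num) x T
  simp only [ENNReal.toReal_one, Real.rpow_one, Real.norm_eq_abs] at h1
  refine le_trans (le_of_eq ?_) (h1.trans (mem_ball_zero_iff.mp hx).le)
  refine Finset.sum_congr rfl fun s _ => ?_
  congr 1
  rw [← hsum, lp.coeFn_sum, Finset.sum_apply]
  refine Finset.sum_congr rfl fun v _ => ?_
  rw [lp.coeFn_smul, Pi.smul_apply, ← hzy v, hvec]
  simp only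
  rw [lp.coeFn_sum, Finset.sum_apply, smul_eq_mul, Finset.mul_sum]
  refine Finset.sum_congr rfl fun r _ => ?_
  rw [lp.coeFn_smul, Pi.smul_apply, he]
  simp only [lp.single_apply, Pi.single_apply, smul_eq_mul, mul_assoc, eq_comm]

noncomputable def Lk (k : ℕ) : (ℕ →₀ ℝ) →ₗ[ℝ] ℝ :=
  Finsupp.linearCombination ℝ fun i => if i < k then (1 : ℝ) else 0

noncomputable def tot : (ℕ →₀ ℝ) →ₗ[ℝ] ℝ := Finsupp.linearCombination ℝ fun _ => (1 : ℝ)

theorem lc_congr {M : Type*} [AddCommGroup M] [Module ℝ M] {v v' : ℕ → M} {a : ℕ →₀ ℝ}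
    (h : ∀ i ∈ a.support, v i = v' i) :
    Finsupp.linearCombination ℝ v a = Finsupp.linearCombination ℝ v' a := by
  rw [Finsupp.linearCombination_apply, Finsupp.linearCombination_apply]
  exact Finsupp.sum_congr fun i hi => by rw [h i hi]

theorem Lk_single (k i : ℕ) (x : ℝ) : Lk k (Finsupp.single i x) = if i < k then x else 0 := by
  simp [Lk]

theorem Lk_eq_ps (k : ℕ) (a : ℕ →₀ ℝ) : Lk k a = ps k a := by
  induction a using Finsupp.induction_linear with
  | zero => simp [ps]
  | add f g hf hg => simp only [map_add, hf, hg, ps, Finsupp.add_apply, Finset.sum_add_distrib]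
  | single i x => simp [Lk_single, ps, Finsupp.single_apply]

theorem Lk_eq_tot {k : ℕ} {a : ℕ →₀ ℝ} (h : ∀ i ∈ a.support, i < k) : Lk k a = tot a :=
  lc_congr fun i hi => by simp [h i hi]

theorem tot_mapDomain (h : ℕ → ℕ) (a : ℕ →₀ ℝ) : tot (a.mapDomain h) = tot a := by
  rw [tot, Finsupp.linearCombination_mapDomain]; rfl

theorem Lk_mapDomain (h : ℕ → ℕ) (a : ℕ →₀ ℝ) (k k' : ℕ)
    (hk : ∀ i ∈ a.support, h i < k ↔ i < k') : Lk k (a.mapDomain h) = Lk k' a := by
  rw [Lk, Finsupp.linearCombination_mapDomain]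
  exact lc_congr fun i hi => by simp [hk i hi]

theorem supp_bdd (a : ℕ →₀ ℝ) : ∃ m, ∀ i ∈ a.support, i < m :=
  ⟨a.support.sup id + 1, fun i hi => Nat.lt_succ_of_le (Finset.le_sup (f := id) hi)⟩

structure Spread (p C θ : ℝ) (R : (ℕ →₀ ℝ) → ℝ) : Prop where
  mt : MT p C R
  up : ∀ i, R (Finsupp.single i 1) ≤ 1
  low : ∀ a, tot a = 0 → ∀ k, (θ * |Lk k a|) ^ p ≤ R a
  inv : ∀ (a : ℕ →₀ ℝ) (ι : ℕ → ℕ) (m : ℕ), (∀ i ∈ a.support, i < m) → SM m ι →
    R (a.mapDomain ι) = R a

theorem bdd_map {p C : ℝ} (hp : 0 < p) (a : ℕ →₀ ℝ) : ∃ B : ℝ, ∀ (R : (ℕ →₀ ℝ) → ℝ), MT p C R →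
    (∀ i, R (Finsupp.single i 1) ≤ 1) → ∀ z : ℕ → ℕ, R (a.mapDomain z) ≤ B := by
  refine ⟨(a.support.card * ∑ i ∈ a.support, |a i|) ^ p, fun R h h1 z => ?_⟩
  have e : a.mapDomain z = ∑ i ∈ a.support, a i • Finsupp.single (z i) (1 : ℝ) := by
    simp [Finsupp.mapDomain, Finsupp.sum]
  rw [e]
  exact h.sum_le hp _ _ _ _ (Finset.sum_nonneg fun _ _ => abs_nonneg _) (fun i _ => h1 _)
    fun i hi => Finset.single_le_sum (f := fun i => |a i|) (fun _ _ => abs_nonneg _) hi

theorem exists_spread {p C θ : ℝ} (hp : 0 < p) (H : ∀ N, ∃ R, James p C θ N R) :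
    ∃ R, Spread p C θ R := by
  choose R hR using H
  have hm : ∀ N, MT p C (fun a : ℕ →₀ ℝ => R N a) := fun N =>
    (hR N).mt.comp (Finsupp.lcoeFun (R := ℝ))
  have hu : ∀ N i, R N (Finsupp.single i (1 : ℝ)) ≤ 1 := fun N i => by
    rw [Finsupp.single_eq_pi_single]; exact (hR N).up i
  obtain ⟨Q, hQ, hQt⟩ := MT.ultra (hyperfilter ℕ) _ hm fun a => by
    obtain ⟨B, hB⟩ := bdd_map (C := C) hp a
    exact ⟨B, fun N => by simpa using hB _ (hm N) (hu N) id⟩
  have hQu : ∀ i, Q (Finsupp.single i 1) ≤ 1 := fun i => le_of_tendsto' (hQt _) fun N => hu N i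
  have hQl : ∀ a, tot a = 0 → ∀ k, (θ * |Lk k a|) ^ p ≤ Q a := fun a ha k => by
    obtain ⟨m, hm⟩ := supp_bdd a
    refine ge_of_tendsto (hQt a) (((eventually_ge_atTop (max m k)).filter_mono
      Nat.hyperfilter_le_atTop).mono fun N hN => ?_)
    rw [Lk_eq_ps]
    refine (hR N).low a ?_ k (le_of_max_le_right hN)
    rw [← Lk_eq_ps, Lk_eq_tot fun i hi => (hm i hi).trans_le (le_of_max_le_left hN), ha]
  obtain ⟨S, hS, hSt⟩ := MT.ultra UW (fun z a => Q (Finsupp.lmapDomain ℝ ℝ z a))
    (fun z => hQ.comp _) fun a => by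
      obtain ⟨B, hB⟩ := bdd_map (C := C) hp a
      exact ⟨B, fun z => hB _ hQ hQu z⟩
  simp only [Finsupp.lmapDomain_apply] at hSt
  refine ⟨S, hS, fun i => le_of_tendsto' (hSt _) fun z => by simpa using hQu _, fun a ha k => ?_,
    fun a ι m hm hι => ?_⟩
  · obtain ⟨m, hm⟩ := supp_bdd a
    by_cases hk : k < m
    · refine ge_of_tendsto (hSt a) ((UW_sm m).mono fun z hz => ?_)
      have := hQl (a.mapDomain z) (by rw [tot_mapDomain, ha]) (z k)
      rwa [Lk_mapDomain z a (z k) k fun i hi => ⟨fun h => ?_, fun h => hz i k h hk⟩] at this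
      by_contra h'
      rcases (not_lt.mp h').lt_or_eq with h'' | rfl
      · have := hz k i h'' (hm i hi); omega
      · omega
    · rw [Lk_eq_tot fun i hi => (hm i hi).trans_le (not_lt.mp hk), ha]
      simpa [Real.zero_rpow hp.ne'] using hS.nonneg a
  · obtain ⟨B, hB⟩ := bdd_map (C := C) hp a
    obtain ⟨l, hl⟩ := exists_tendsto_ultra (UU m) (fun z => Q (a.mapDomain z)) B fun z => by
      rw [abs_of_nonneg (hQ.nonneg _)]; exact hB _ hQ hQu z
    have key : ∀ κ : ℕ → ℕ, SM m κ → S (a.mapDomain κ) = l := fun κ hκ => by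
      refine tendsto_nhds_unique (hSt _) ((UW_tendsto hl κ hκ).congr fun z => ?_)
      rw [← Finsupp.mapDomain_comp]
      congr 1
      exact Finsupp.mapDomain_congr fun i hi => by simp [trunc, hm i hi]
    rw [key ι hι, ← key id fun i j h _ => h, Finsupp.mapDomain_id]

end Vale.Agent.P125
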