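import Vale.Agent.P125.Ultra

namespace Vale.Agent.P125

open Finset

noncomputable def Om (m : ℕ) (s : ℕ → ℕ) : ℕ →₀ ℝ :=
  ∑ i ∈ range m, (-1 : ℝ) ^ i • (Finsupp.single (s i) 1 - Finsupp.single (s (i + 1)) 1)

theorem Om_congr {m : ℕ} {s s' : ℕ → ℕ} (h : ∀ i < m + 1, s i = s' i) : Om m s = Om m s' :=
  Finset.sum_congr rfl fun i hi => by
    have := mem_range.mp hi
    rw [h i (by omega), h (i + 1) (by omega)]

theorem Om_map (m : ℕ) (s : ℕ → ℕ) : (Om m id).mapDomain s = Om m s := by
  rw [← Finsupp.lmapDomain_apply ℝ ℝ]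
  simp only [Om, map_sum, map_smul, map_sub, Finsupp.lmapDomain_apply, Finsupp.mapDomain_single, id]

theorem tot_Om (m : ℕ) (s : ℕ → ℕ) : tot (Om m s) = 0 := by
  simp [Om, tot, map_sum]

theorem SM.le {m : ℕ} {s : ℕ → ℕ} (hs : SM m s) {i j : ℕ} (h : i ≤ j) (hj : j < m) : s i ≤ s j := by
  rcases h.lt_or_eq with h | rfl
  · exact (hs i j h hj).le
  · exact le_rfl

theorem Lk_Om {m : ℕ} {s : ℕ → ℕ} (hs : SM (m + 1) s) {i k : ℕ} (hi : i < m) (h1 : s i < k)
    (h2 : k ≤ s (i + 1)) : Lk k (Om m s) = (-1) ^ i := by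
  simp only [Om, map_sum, map_smul, map_sub, Lk_single]
  rw [Finset.sum_eq_single i]
  · simp [h1, not_lt.mpr h2]
  · intro j hj hji
    have hj := mem_range.mp hj
    rcases lt_or_gt_of_ne hji with h | h
    · have := hs.le (i := j + 1) (j := i) h (by omega)
      have := hs.le (i := j) (j := i) h.le (by omega)
      rw [if_pos (by omega), if_pos (by omega)]; simp
    · have := hs.le (i := i + 1) (j := j) h (by omega)
      have := hs.le (i := i + 1) (j := j + 1) (by omega) (by omega)
      rw [if_neg (by omega), if_neg (by omega)]; simp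
  · intro h; exact absurd (mem_range.mpr hi) h

theorem Om_supp {m n : ℕ} {s : ℕ → ℕ} (h : ∀ i < m + 1, s i < n) : ∀ x ∈ (Om m s).support, x < n := by
  intro x hx
  by_contra hn
  refine Finsupp.mem_support_iff.mp hx ?_
  simp only [Om, Finsupp.finsetSum_apply, Finsupp.smul_apply, Finsupp.sub_apply]
  refine Finset.sum_eq_zero fun i hi => ?_
  have hi := mem_range.mp hi
  have h1 := h i (by omega)
  have h2 := h (i + 1) (by omega)
  rw [Finsupp.single_eq_of_ne (by omega), Finsupp.single_eq_of_ne (by omega)]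
  simp

theorem Om_abs (m : ℕ) (s : ℕ → ℕ) (x : ℕ) : |Om m s x| ≤ m := by
  simp only [Om, Finsupp.finsetSum_apply, Finsupp.smul_apply, Finsupp.sub_apply]
  refine (Finset.abs_sum_le_sum_abs _ _).trans ?_
  have : ∑ _i ∈ range m, (1 : ℝ) = m := by simp
  rw [← this]
  refine Finset.sum_le_sum fun i _ => ?_
  simp only [smul_eq_mul, abs_mul, abs_pow, abs_neg, abs_one, one_pow, one_mul,
    Finsupp.single_apply]
  split_ifs <;> simp

theorem ext_Lk {a b : ℕ →₀ ℝ} (h : ∀ c, Lk c a = Lk c b) : a = b := by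
  ext i
  have h1 := h i
  have h2 := h (i + 1)
  simp only [Lk_eq_ps, ps, Finset.sum_range_succ] at h1 h2
  linarith

def cntf (m : ℕ) (k : ℕ → ℕ) (x : ℕ) : ℕ := ((range m).filter fun i => k i ≤ x).card

theorem cntf_mono (m : ℕ) (k : ℕ → ℕ) : Monotone (cntf m k) := fun x y hxy =>
  Finset.card_le_card fun i hi => by
    rw [mem_filter] at hi ⊢
    exact ⟨hi.1, hi.2.trans hxy⟩

theorem merge {g : ℕ →₀ ℝ} (hg : tot g = 0) {m : ℕ} {k : ℕ → ℕ} (hk : SM m k) {σ : ℝ}
    (h : ∀ i < m, Lk (k i) g = σ * (-1) ^ i) : g.mapDomain (cntf m k) = σ • Om m id := by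
  refine ext_Lk fun c => ?_
  rw [map_smul, smul_eq_mul]
  cases c with
  | zero => simp [Lk_eq_ps]
  | succ c =>
    by_cases hc : c < m
    · rw [Lk_Om (s := id) (fun i j h _ => h) hc (by simp) (by simp), ← h c hc]
      refine Lk_mapDomain _ _ _ _ fun x _ => ⟨fun h1 => ?_, fun h1 => ?_⟩
      · by_contra h2
        have : range (c + 1) ⊆ (range m).filter fun i => k i ≤ x := fun i hi => by
          have hi := mem_range.mp hi
          rw [mem_filter, mem_range]
          exact ⟨by omega, (hk.le (by omega) hc).trans (not_lt.mp h2)⟩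
        have := Finset.card_le_card this
        rw [card_range] at this
        unfold cntf at h1
        omega
      · have : ((range m).filter fun i => k i ≤ x) ⊆ range c := fun i hi => by
          rw [mem_filter, mem_range] at hi
          rw [mem_range]
          by_contra h2
          have := hk.le (not_lt.mp h2) hi.1
          omega
        have := Finset.card_le_card this
        rw [card_range] at this
        unfold cntf
        omega
    · obtain ⟨n, hn⟩ := supp_bdd g
      rw [Lk_eq_tot (a := Om m id) (Om_supp fun i hi => by simp; omega), tot_Om, mul_zero,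
        Lk_mapDomain _ _ _ n fun x hx => ⟨fun _ => hn x hx, fun _ => ?_⟩, Lk_eq_tot hn, hg]
      have : cntf m k x ≤ m := (Finset.card_filter_le _ _).trans (card_range m).le
      omega

noncomputable def TB (B : ℕ) : (ℕ →₀ ℝ) →ₗ[ℝ] (ℕ →₀ ℝ) :=
  Finsupp.linearCombination ℝ fun i => (B : ℝ)⁻¹ • ∑ j ∈ range B, Finsupp.single (i * B + j) (1 : ℝ)

theorem TB_single (B i : ℕ) (x : ℝ) : TB B (Finsupp.single i x) =
    x • (B : ℝ)⁻¹ • ∑ j ∈ range B, Finsupp.single (i * B + j) (1 : ℝ) := by
  simp [TB]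

theorem TB_map (B : ℕ) (s : ℕ → ℕ) (a : ℕ →₀ ℝ) :
    TB B (a.mapDomain s) = (TB B a).mapDomain fun x => s (x / B) * B + x % B := by
  induction a using Finsupp.induction_linear with
  | zero => simp
  | add f g hf hg => simp only [Finsupp.mapDomain_add, map_add, hf, hg]
  | single i x =>
    rw [Finsupp.mapDomain_single, TB_single, TB_single, ← Finsupp.lmapDomain_apply ℝ ℝ]
    simp only [map_smul, map_sum, Finsupp.lmapDomain_apply, Finsupp.mapDomain_single]
    congr 2
    refine Finset.sum_congr rfl fun j hj => ?_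
    have hj := mem_range.mp hj
    rw [mul_comm i B, Nat.mul_add_div (by omega), Nat.mul_add_mod, Nat.div_eq_of_lt hj,
      Nat.mod_eq_of_lt hj, add_zero]

theorem TB_supp {B n : ℕ} {a : ℕ →₀ ℝ} (h : ∀ i ∈ a.support, i < n) :
    ∀ x ∈ (TB B a).support, x < n * B := by
  intro x hx
  by_contra hn
  refine Finsupp.mem_support_iff.mp hx ?_
  rw [TB, Finsupp.linearCombination_apply, Finsupp.sum, Finsupp.finsetSum_apply]
  refine Finset.sum_eq_zero fun i hi => ?_
  simp only [Finsupp.smul_apply, Finsupp.finsetSum_apply]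
  rw [Finset.sum_eq_zero fun j hj => ?_]
  · simp
  have hj := mem_range.mp hj
  have : (i + 1) * B ≤ n * B := Nat.mul_le_mul_right _ (h i hi)
  exact Finsupp.single_eq_of_ne (by nlinarith)

theorem Lk_TB {B : ℕ} (hB : 0 < B) (k : ℕ) (a : ℕ →₀ ℝ) : Lk (k * B) (TB B a) = Lk k a := by
  induction a using Finsupp.induction_linear with
  | zero => simp
  | add f g hf hg => simp only [map_add, hf, hg]
  | single i x =>
    have hB' : (B : ℝ) ≠ 0 := by positivity
    simp only [TB_single, map_smul, map_sum, Lk_single, smul_eq_mul]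
    have : ∀ j ∈ range B, (if i * B + j < k * B then (1 : ℝ) else 0) = if i < k then 1 else 0 := by
      intro j hj
      have hj := mem_range.mp hj
      by_cases h : i < k
      · have : (i + 1) * B ≤ k * B := Nat.mul_le_mul_right _ h
        rw [if_pos (by nlinarith), if_pos h]
      · have : k * B ≤ i * B := Nat.mul_le_mul_right _ (not_lt.mp h)
        rw [if_neg (by omega), if_neg h]
    rw [Finset.sum_congr rfl this]
    split_ifs <;> simp [hB']

variable {p C θ : ℝ} {R : (ℕ →₀ ℝ) → ℝ}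

theorem Spread.tb (h : Spread p C θ R) {B : ℕ} (hB : 0 < B) :
    Spread p C θ (fun a => R (TB B a)) := by
  have hB' : (0 : ℝ) < B := by positivity
  refine ⟨h.mt.comp _, fun i => ?_, fun a ha k => ?_, fun a ι m hm hι => ?_⟩
  · have := h.mt.avg (range B) ⟨0, mem_range.mpr hB⟩ fun j => Finsupp.single (i * B + j) (1 : ℝ)
    rw [card_range] at this
    rw [TB_single, one_smul]
    refine this.trans ?_
    have h1 : ∑ j ∈ range B, R (Finsupp.single (i * B + j) 1) ≤ ∑ _j ∈ range B, (1 : ℝ) :=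
      Finset.sum_le_sum fun j _ => h.up _
    rw [inv_mul_le_iff₀ hB']
    simpa using h1
  · obtain ⟨n, hn⟩ := supp_bdd a
    rw [← Lk_TB hB]
    refine h.low _ ?_ _
    rw [← Lk_eq_tot (TB_supp hn), Lk_TB hB, Lk_eq_tot hn, ha]
  · rw [TB_map]
    refine h.inv _ _ _ (TB_supp hm) fun x y hxy hy => ?_
    have h1 : y / B < m := (Nat.div_lt_iff_lt_mul hB).mpr hy
    have h2 := Nat.mod_lt x hB
    have h3 := Nat.div_add_mod x B
    have h4 := Nat.div_add_mod y B
    rcases (Nat.div_le_div_right (c := B) hxy.le).lt_or_eq with h5 | h5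
    · have : (ι (x / B) + 1) * B ≤ ι (y / B) * B := Nat.mul_le_mul_right _ (hι _ _ h5 h1)
      rw [add_mul, one_mul] at this
      omega
    · rw [h5] at h3 ⊢
      omega

theorem sum_mod {M : Type*} [AddCommGroup M] (F : ℕ → M) (B o : ℕ) :
    ∑ u ∈ range B, F ((o + u) % B) = ∑ c ∈ range B, F c := by
  induction o with
  | zero => exact Finset.sum_congr rfl fun u hu => by rw [zero_add, Nat.mod_eq_of_lt (mem_range.mp hu)]
  | succ o ih =>
    have h1 := Finset.sum_range_succ (fun u => F ((o + u) % B)) B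
    have h2 := Finset.sum_range_succ' (fun u => F ((o + u) % B)) B
    rw [h1, ih, Nat.add_mod_right, add_zero, add_left_inj] at h2
    rw [h2]
    exact Finset.sum_congr rfl fun u _ => by congr 2; omega

theorem Spread.crude (h : Spread p C θ R) (hp : 0 < p) {g : ℕ →₀ ℝ} {n : ℕ}
    (hn : ∀ i ∈ g.support, i < n) {c : ℝ} (hc0 : 0 ≤ c) (hc : ∀ i, |g i| ≤ c) (ι : ℕ → ℕ) :
    R (g.mapDomain ι) ≤ (n * c) ^ p := by
  have e : g.mapDomain ι = ∑ i ∈ g.support, g i • Finsupp.single (ι i) (1 : ℝ) := by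
    simp [Finsupp.mapDomain, Finsupp.sum]
  rw [e]
  refine (h.mt.sum_le hp _ _ _ c hc0 (fun i _ => h.up _) fun i _ => hc i).trans ?_
  refine Real.rpow_le_rpow (by positivity) (mul_le_mul_of_nonneg_right ?_ hc0) hp.le
  have := Finset.card_le_card (s := g.support) (t := range n) fun i hi => mem_range.mpr (hn i hi)
  rw [card_range] at this
  exact_mod_cast this

theorem Spread.sa (h : Spread p C θ R) (hp : 0 < p) {g : ℕ →₀ ℝ} {n : ℕ}
    (hn : ∀ i ∈ g.support, i < n) {c : ℝ} (hc0 : 0 ≤ c) (hc : ∀ i, |g i| ≤ c) {f : ℕ → ℕ}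
    (hf : Monotone f) (U : ℕ) (hB : 0 < U + n) :
    R (TB (U + n) (g.mapDomain f)) ≤ R g + n / (U + n) * (n * c) ^ p := by
  have e : ∀ g : ℕ →₀ ℝ, TB (U + n) (g.mapDomain f) = ((range (U + n)).card : ℝ)⁻¹ •
      ∑ u ∈ range (U + n), g.mapDomain fun i => f i * (U + n) + (i + u) % (U + n) := by
    intro g
    induction g using Finsupp.induction_linear with
    | zero => simp
    | add a b ha hb =>
      simp only [Finsupp.mapDomain_add, map_add, ha, hb, Finset.sum_add_distrib, smul_add]
    | single i x =>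
      simp only [Finsupp.mapDomain_single, TB_single, card_range]
      rw [sum_mod (fun j => Finsupp.single (f i * (U + n) + j) x), smul_comm, Finset.smul_sum]
      simp
  rw [e]
  refine (h.mt.avg _ ⟨0, mem_range.mpr hB⟩ _).trans ?_
  have hB' : (0 : ℝ) < U + n := by exact_mod_cast hB
  rw [card_range, Finset.sum_range_add, Nat.cast_add, inv_mul_le_iff₀ hB']
  have h1 : ∑ u ∈ range U, R (g.mapDomain fun i => f i * (U + n) + (i + u) % (U + n)) ≤
      ∑ _u ∈ range U, R g := by
    refine Finset.sum_le_sum fun u hu => (h.inv g _ n hn fun i j hij hj => ?_).le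
    have hu := mem_range.mp hu
    have : f i * (U + n) ≤ f j * (U + n) := Nat.mul_le_mul_right _ (hf hij.le)
    rw [Nat.mod_eq_of_lt (by omega), Nat.mod_eq_of_lt (by omega)]
    omega
  have h2 : ∑ u ∈ range n, R (g.mapDomain fun i => f i * (U + n) + (i + (U + u)) % (U + n)) ≤
      ∑ _u ∈ range n, (n * c) ^ p := Finset.sum_le_sum fun u _ => h.crude hp hn hc0 hc _
  rw [Finset.sum_const, card_range, nsmul_eq_mul] at h1 h2
  have h3 := mul_nonneg (Nat.cast_nonneg (α := ℝ) n) (h.mt.nonneg g)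
  have h4 : ((U : ℝ) + n) * (n / (U + n) * (n * c) ^ p) = n * (n * c) ^ p := by field_simp
  rw [mul_add, h4]
  nlinarith

end Vale.Agent.P125
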